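import Vale.Agent.P154q4.TM

/-!
Certificate checker for a polynomial inequality in two pairs of variables `(P, T)`, `(Q, R)`, for the
three-colour channel: the region of a message in the coordinates `P = s2`, `T = |τ| / P`.
No Mathlib here.
-/

namespace Vale.Agent.P154q3.TMQ

open Vale.Agent.P154q4.TMC

noncomputable section

/-- Exclusion tests for a box; code `0`: `2 T² ≤ P`, code `1`: `0 ≤ 1 - 3/2 P ± P T`.
`s` is the sign of `τ`. -/
def excl3 (s : Bool) (B : Box) (code : Nat) : Bool :=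
  Nat.rec (motive := fun _ => Bool)
    (Nat.blt (Nat.mul B.p2 BB) (Nat.mul 2 (Nat.mul B.t1 B.t1)))
    (fun _ _ => cond s
      (Nat.blt (Nat.add (Nat.mul 2 (Nat.mul BB BB)) (Nat.mul 2 (Nat.mul B.p2 B.t2)))
        (Nat.mul 3 (Nat.mul B.p1 BB)))
      (Nat.blt (Nat.mul 2 (Nat.mul BB BB))
        (Nat.add (Nat.mul 3 (Nat.mul B.p1 BB)) (Nat.mul 2 (Nat.mul B.p1 B.t1)))))
    code

/-- The check of a tightening of `t2`. -/
def okT3 (B : Box) (v : Nat) : Bool := Nat.ble (Nat.mul B.p2 BB) (Nat.mul 2 (Nat.mul v v))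

/-- The test at a leaf: the lower bound of the polynomial is nonnegative. -/
def leafTest3 (zd : List Z) (yd : List T) : Bool :=
  let P := pair zd yd
  Nat.ble (tot P) P.vp

/-- Certificate trees. -/
inductive Tr3 where
  | lf : Tr3
  | zs : Nat → Nat → Tr3 → Tr3 → Tr3
  | ys : Nat → Nat → Tr3 → Tr3 → Tr3
  | zx : Nat → Tr3
  | yx : Nat → Tr3
  | zt : Nat → Tr3 → Tr3
  | yt : Nat → Tr3 → Tr3

/-- The recursive checker. -/
def chk3 (D : Data) (t : Tr3) : Box → Box → List Z → List T → Bool :=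
  Tr3.rec (motive := fun _ => Box → Box → List Z → List T → Bool)
    (fun _ _ zd yd => leafTest3 zd yd)
    (fun v m _ _ il ir ZB YB _ yd =>
      and (il (cutL v m ZB) YB (zData D (cutL v m ZB)) yd)
          (ir (cutR v m ZB) YB (zData D (cutR v m ZB)) yd))
    (fun v m _ _ il ir ZB YB zd _ =>
      and (il ZB (cutL v m YB) zd (yData D (cutL v m YB)))
          (ir ZB (cutR v m YB) zd (yData D (cutR v m YB))))
    (fun c ZB _ _ _ => excl3 D.sz ZB c)
    (fun c _ YB _ _ => excl3 D.sy YB c)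
    (fun v _ ih ZB YB _ yd =>
      let B : Box := ⟨ZB.p1, ZB.p2, ZB.t1, v, ZB.e1, ZB.e2⟩
      and (okT3 ZB v) (ih B YB (zData D B) yd))
    (fun v _ ih ZB YB zd _ =>
      let B : Box := ⟨YB.p1, YB.p2, YB.t1, v, YB.e1, YB.e2⟩
      and (okT3 YB v) (ih ZB B zd (yData D B)))
    t

/-- The check from a pair of boxes. -/
def chkRoot3 (D : Data) (t : Tr3) (ZB YB : Box) : Bool :=
  chk3 D t ZB YB (zData D ZB) (yData D YB)

end

end Vale.Agent.P154q3.TMQ
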