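import Mathlib
import Vale.Agent.P154q4.TMSound
import Vale.Agent.P154q3.TMQ

/-! Soundness of the checker `TMQ.lean`. -/

open Vale.Agent.P154q4.TMC Vale.Agent.P154q4.TMS Vale.Agent.P154q3.TMQ

namespace Vale.Agent.P154q3.TMQS

/-- The region in the coordinates `(P, T, _)`, for the sign `s` of `τ`. -/
structure Reg3 (s : Bool) (x : ℝ × ℝ × ℝ) : Prop where
  p_pos : 0 < x.1
  t_nn : 0 ≤ x.2.1
  gd : 2 * x.2.1 ^ 2 ≤ x.1
  gz : 0 ≤ 1 - 3 / 2 * x.1 + (if s then 1 else -1) * (x.1 * x.2.1)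

/-- What a pair of boxes certifies. -/
def Cov3 (D : Data) (ZB YB : Box) : Prop :=
  ∀ x y, InBox ZB x → InBox YB y → Reg3 D.sz x → Reg3 D.sy y → 0 ≤ Aval D x y

theorem leaf_sound3 (D : Data) (ZB YB : Box) {x y : ℝ × ℝ × ℝ} (hx : InBox ZB x) (hy : InBox YB y)
    (h : leafTest3 (zData D ZB) (yData D YB) = true) : 0 ≤ Aval D x y := by
  obtain ⟨δ, hδ, h1, h2, h3⟩ := box_param hx
  obtain ⟨δ', hδ', g1, g2, g3⟩ := box_param hy
  have hac := pair_sound hδ hδ' (monos_sound hδ h1 h2 h3 D.zt) D.s D.cf _ _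
    (monos_sound hδ' g1 g2 g3 D.yt)
  have hlb := lb_of_InAc hδ hδ' hac
  have hz : pair (coefs D.s (one :: emit (vP ZB) (vQ ZB) (vR ZB) D.zt one []) D.cf)
      (one :: emit (vP YB) (vQ YB) (vR YB) D.yt one []) = pair (zData D ZB) (yData D YB) := rfl
  rw [hz] at hlb
  unfold leafTest3 at h
  generalize pair (zData D ZB) (yData D YB) = P at h hlb
  have hb : tot P ≤ P.vp := Nat.le_of_ble_eq_true h
  have hbr : ((tot P : ℕ) : ℝ) ≤ (P.vp : ℝ) := by exact_mod_cast hb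
  have e : (2 : ℝ) ^ 80 * (tabVal x y (mexps D.zt) D.cf (mexps D.yt) / 2 ^ D.s)
      = 2 ^ 80 * Aval D x y := rfl
  rw [e] at hlb
  have h0 : 0 ≤ (2 : ℝ) ^ 80 * Aval D x y := by linarith
  exact nonneg_of_mul_nonneg_right h0 (by positivity)

/-- The exclusion test with the scale as a parameter. -/
def exclK3 (K : ℕ) (s : Bool) (B : Box) (code : ℕ) : Bool :=
  Nat.rec (motive := fun _ => Bool)
    (Nat.blt (Nat.mul B.p2 K) (Nat.mul 2 (Nat.mul B.t1 B.t1)))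
    (fun _ _ => cond s
      (Nat.blt (Nat.add (Nat.mul 2 (Nat.mul K K)) (Nat.mul 2 (Nat.mul B.p2 B.t2)))
        (Nat.mul 3 (Nat.mul B.p1 K)))
      (Nat.blt (Nat.mul 2 (Nat.mul K K))
        (Nat.add (Nat.mul 3 (Nat.mul B.p1 K)) (Nat.mul 2 (Nat.mul B.p1 B.t1)))))
    code

lemma excl3_eq (s : Bool) (B : Box) (c : ℕ) : excl3 s B c = exclK3 BB s B c := rfl

lemma exclK3_0 (K : ℕ) (s : Bool) (B : Box) :
    exclK3 K s B 0 = Nat.blt (B.p2 * K) (2 * (B.t1 * B.t1)) := rfl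
lemma exclK3_1t (K : ℕ) (B : Box) (n : ℕ) :
    exclK3 K true B (n + 1) = Nat.blt (2 * (K * K) + 2 * (B.p2 * B.t2)) (3 * (B.p1 * K)) := rfl
lemma exclK3_1f (K : ℕ) (B : Box) (n : ℕ) :
    exclK3 K false B (n + 1) = Nat.blt (2 * (K * K)) (3 * (B.p1 * K) + 2 * (B.p1 * B.t1)) := rfl

theorem excl3_sound {s : Bool} {B : Box} {c : ℕ} (h : excl3 s B c = true) {x : ℝ × ℝ × ℝ}
    (hx : InBox B x) (hr : Reg3 s x) : False := by
  obtain ⟨a1, a2, a3, a4, -, -⟩ := hx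
  have hp := hr.p_pos
  have ht := hr.t_nn
  have gd := hr.gd
  have gz := hr.gz
  set X := 2 ^ 24 * x.1 with hX
  set Y := 2 ^ 24 * x.2.1 with hY
  have hX0 : 0 < X := by positivity
  have hY0 : 0 ≤ Y := by positivity
  have t1nn : (0 : ℝ) ≤ B.t1 := Nat.cast_nonneg _
  have p1nn : (0 : ℝ) ≤ B.p1 := Nat.cast_nonneg _
  have p2nn : (0 : ℝ) ≤ B.p2 := Nat.cast_nonneg _
  have t2nn : (0 : ℝ) ≤ B.t2 := Nat.cast_nonneg _
  have ex : x.1 = X / 2 ^ 24 := by rw [hX]; field_simp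
  have ey : x.2.1 = Y / 2 ^ 24 := by rw [hY]; field_simp
  rw [ex, ey] at gd gz
  cases c with
  | zero =>
    have h0 : B.p2 * BB < 2 * (B.t1 * B.t1) := by
      rw [excl3_eq, exclK3_0, Nat.blt_eq] at h; exact h
    have h1 : (B.p2 : ℝ) * 2 ^ 24 < 2 * ((B.t1 : ℝ) * B.t1) := by
      rw [← bb_cast]; exact_mod_cast h0
    have gd' : 2 * Y ^ 2 ≤ X * 2 ^ 24 := by
      field_simp at gd
      linarith only [gd]
    have htt : (B.t1 : ℝ) * B.t1 ≤ Y ^ 2 := by nlinarith only [a3, t1nn, hY0]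
    have h4 : X * 2 ^ 24 ≤ (B.p2 : ℝ) * 2 ^ 24 := mul_le_mul_of_nonneg_right a2 (by positivity)
    linarith only [h1, gd', htt, h4]
  | succ n =>
    cases s with
    | true =>
      have h0 : 2 * (BB * BB) + 2 * (B.p2 * B.t2) < 3 * (B.p1 * BB) := by
        rw [excl3_eq, exclK3_1t, Nat.blt_eq] at h; exact h
      have h1 : 2 * ((2 : ℝ) ^ 24 * 2 ^ 24) + 2 * ((B.p2 : ℝ) * B.t2) < 3 * ((B.p1 : ℝ) * 2 ^ 24) := by
        rw [← bb_cast]; exact_mod_cast h0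
      simp only [if_true, one_mul] at gz
      have gz' : 3 * (X * 2 ^ 24) ≤ 2 * (2 ^ 24 * 2 ^ 24) + 2 * (X * Y) := by
        field_simp at gz
        linarith only [gz]
      have hxy : X * Y ≤ (B.p2 : ℝ) * B.t2 := mul_le_mul a2 a4 hY0 p2nn
      have h4 : (B.p1 : ℝ) * 2 ^ 24 ≤ X * 2 ^ 24 := mul_le_mul_of_nonneg_right a1 (by positivity)
      linarith only [h1, gz', hxy, h4]
    | false =>
      have h0 : 2 * (BB * BB) < 3 * (B.p1 * BB) + 2 * (B.p1 * B.t1) := by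
        rw [excl3_eq, exclK3_1f, Nat.blt_eq] at h; exact h
      have h1 : 2 * ((2 : ℝ) ^ 24 * 2 ^ 24) < 3 * ((B.p1 : ℝ) * 2 ^ 24) + 2 * ((B.p1 : ℝ) * B.t1) := by
        rw [← bb_cast]; exact_mod_cast h0
      simp only [Bool.false_eq_true, if_false] at gz
      have gz' : 3 * (X * 2 ^ 24) + 2 * (X * Y) ≤ 2 * (2 ^ 24 * 2 ^ 24) := by
        field_simp at gz
        linarith only [gz]
      have hxy : (B.p1 : ℝ) * B.t1 ≤ X * Y := mul_le_mul a1 a3 t1nn hX0.le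
      have h4 : (B.p1 : ℝ) * 2 ^ 24 ≤ X * 2 ^ 24 := mul_le_mul_of_nonneg_right a1 (by positivity)
      linarith only [h1, gz', hxy, h4]

theorem Cov3_zs (D : Data) (v m : Nat) (ZB YB : Box)
    (h1 : Cov3 D (cutL v m ZB) YB) (h2 : Cov3 D (cutR v m ZB) YB) : Cov3 D ZB YB := by
  intro x y hx hy hrx hry
  obtain ⟨a1, a2, a3, a4, a5, a6⟩ := hx
  match v, h1, h2 with
  | 0, h1, h2 =>
    rcases le_total (2 ^ 24 * x.1) (m : ℝ) with h | h
    · exact h1 x y ⟨a1, h, a3, a4, a5, a6⟩ hy hrx hry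
    · exact h2 x y ⟨h, a2, a3, a4, a5, a6⟩ hy hrx hry
  | 1, h1, h2 =>
    rcases le_total (2 ^ 24 * x.2.1) (m : ℝ) with h | h
    · exact h1 x y ⟨a1, a2, a3, h, a5, a6⟩ hy hrx hry
    · exact h2 x y ⟨a1, a2, h, a4, a5, a6⟩ hy hrx hry
  | n + 2, h1, h2 =>
    rcases le_total (2 ^ 24 * x.2.2) (m : ℝ) with h | h
    · exact h1 x y ⟨a1, a2, a3, a4, a5, h⟩ hy hrx hry
    · exact h2 x y ⟨a1, a2, a3, a4, h, a6⟩ hy hrx hry

theorem Cov3_ys (D : Data) (v m : Nat) (ZB YB : Box)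
    (h1 : Cov3 D ZB (cutL v m YB)) (h2 : Cov3 D ZB (cutR v m YB)) : Cov3 D ZB YB := by
  intro x y hx hy hrx hry
  obtain ⟨a1, a2, a3, a4, a5, a6⟩ := hy
  match v, h1, h2 with
  | 0, h1, h2 =>
    rcases le_total (2 ^ 24 * y.1) (m : ℝ) with h | h
    · exact h1 x y hx ⟨a1, h, a3, a4, a5, a6⟩ hrx hry
    · exact h2 x y hx ⟨h, a2, a3, a4, a5, a6⟩ hrx hry
  | 1, h1, h2 =>
    rcases le_total (2 ^ 24 * y.2.1) (m : ℝ) with h | h
    · exact h1 x y hx ⟨a1, a2, a3, h, a5, a6⟩ hrx hry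
    · exact h2 x y hx ⟨a1, a2, h, a4, a5, a6⟩ hrx hry
  | n + 2, h1, h2 =>
    rcases le_total (2 ^ 24 * y.2.2) (m : ℝ) with h | h
    · exact h1 x y hx ⟨a1, a2, a3, a4, a5, h⟩ hrx hry
    · exact h2 x y hx ⟨a1, a2, a3, a4, h, a6⟩ hrx hry

/-- The tightening of `t2`. -/
lemma okT3_sound {s : Bool} {B : Box} {v : ℕ} (h0 : okT3 B v = true) {x : ℝ × ℝ × ℝ}
    (hx : InBox B x) (hr : Reg3 s x) : 2 ^ 24 * x.2.1 ≤ (v : ℝ) := by
  obtain ⟨a1, a2, a3, a4, -, -⟩ := hx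
  have h1 : B.p2 * BB ≤ 2 * (v * v) := Nat.le_of_ble_eq_true h0
  have h2 : (B.p2 : ℝ) * 2 ^ 24 ≤ 2 * ((v : ℝ) * v) := by
    rw [← bb_cast]; exact_mod_cast h1
  have hv : (0 : ℝ) ≤ v := Nat.cast_nonneg _
  have gd := hr.gd
  have ht0 := hr.t_nn
  by_contra hc
  push Not at hc
  have h3 : (v : ℝ) * v < (2 ^ 24 * x.2.1) * (2 ^ 24 * x.2.1) :=
    mul_self_lt_mul_self hv hc
  have h4 : 2 ^ 24 * x.1 * 2 ^ 24 ≤ (B.p2 : ℝ) * 2 ^ 24 :=
    mul_le_mul_of_nonneg_right a2 (by positivity)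
  nlinarith

theorem Cov3_zt (D : Data) (v : Nat) (ZB YB : Box) (h0 : okT3 ZB v = true)
    (h : Cov3 D ⟨ZB.p1, ZB.p2, ZB.t1, v, ZB.e1, ZB.e2⟩ YB) : Cov3 D ZB YB := by
  intro x y hx hy hrx hry
  have hle := okT3_sound h0 hx hrx
  obtain ⟨a1, a2, a3, a4, a5, a6⟩ := hx
  exact h x y ⟨a1, a2, a3, hle, a5, a6⟩ hy hrx hry

theorem Cov3_yt (D : Data) (v : Nat) (ZB YB : Box) (h0 : okT3 YB v = true)
    (h : Cov3 D ZB ⟨YB.p1, YB.p2, YB.t1, v, YB.e1, YB.e2⟩) : Cov3 D ZB YB := by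
  intro x y hx hy hrx hry
  have hle := okT3_sound h0 hy hry
  obtain ⟨a1, a2, a3, a4, a5, a6⟩ := hy
  exact h x y hx ⟨a1, a2, a3, hle, a5, a6⟩ hrx hry

lemma and_eq_true' {a b : Bool} (h : and a b = true) : a = true ∧ b = true := by
  simpa using h

theorem chk3_sound (D : Data) (t : Tr3) :
    ∀ (ZB YB : Box), chk3 D t ZB YB (zData D ZB) (yData D YB) = true → Cov3 D ZB YB := by
  induction t with
  | lf =>
    intro ZB YB h x y hx hy _ _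
    exact leaf_sound3 D ZB YB hx hy h
  | zs v m l r il ir =>
    intro ZB YB h
    obtain ⟨h1, h2⟩ := and_eq_true' (a := chk3 D l (cutL v m ZB) YB (zData D (cutL v m ZB)) (yData D YB))
      (b := chk3 D r (cutR v m ZB) YB (zData D (cutR v m ZB)) (yData D YB)) h
    exact Cov3_zs D v m ZB YB (il _ _ h1) (ir _ _ h2)
  | ys v m l r il ir =>
    intro ZB YB h
    obtain ⟨h1, h2⟩ := and_eq_true' (a := chk3 D l ZB (cutL v m YB) (zData D ZB) (yData D (cutL v m YB)))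
      (b := chk3 D r ZB (cutR v m YB) (zData D ZB) (yData D (cutR v m YB))) h
    exact Cov3_ys D v m ZB YB (il _ _ h1) (ir _ _ h2)
  | zx c =>
    intro ZB YB h x y hx hy hrx hry
    exact (excl3_sound (s := D.sz) (B := ZB) (c := c) h hx hrx).elim
  | yx c =>
    intro ZB YB h x y hx hy hrx hry
    exact (excl3_sound (s := D.sy) (B := YB) (c := c) h hy hry).elim
  | zt v t ih =>
    intro ZB YB h
    obtain ⟨h0, h1⟩ := and_eq_true' (a := okT3 ZB v)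
      (b := chk3 D t ⟨ZB.p1, ZB.p2, ZB.t1, v, ZB.e1, ZB.e2⟩ YB
        (zData D ⟨ZB.p1, ZB.p2, ZB.t1, v, ZB.e1, ZB.e2⟩) (yData D YB)) h
    exact Cov3_zt D v ZB YB h0 (ih _ _ h1)
  | yt v t ih =>
    intro ZB YB h
    obtain ⟨h0, h1⟩ := and_eq_true' (a := okT3 YB v)
      (b := chk3 D t ZB ⟨YB.p1, YB.p2, YB.t1, v, YB.e1, YB.e2⟩
        (zData D ZB) (yData D ⟨YB.p1, YB.p2, YB.t1, v, YB.e1, YB.e2⟩)) h
    exact Cov3_yt D v ZB YB h0 (ih _ _ h1)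

/-- Main theorem. -/
theorem chkRoot3_sound (D : Data) (t : Tr3) (ZB YB : Box) (h : chkRoot3 D t ZB YB = true) :
    Cov3 D ZB YB := chk3_sound D t ZB YB h

end Vale.Agent.P154q3.TMQS
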