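import Vale.Agent.P154q3.Master
import Vale.Agent.P154.GWDefs

/-!
Three-state Potts channel on Galton-Watson trees: a law-level master theorem for a cone potential,
with series instead of the finite sums of `Master.lean`.
-/

open Finset BigOperators Filter Topology

open Vale.Agent.P154

namespace Vale.Agent.P154q3.GW3

section product

variable {X : Type*}

/-- The law of independent copies. -/
lemma hasSum_pi_prod (g : X → ℝ) (hg : ∀ ξ, 0 ≤ g ξ) (a : ℝ) (h : HasSum g a) (N : ℕ) :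
    HasSum (fun f : Fin N → X => ∏ c, g (f c)) (a ^ N) := by
  induction N with
  | zero =>
    have : IsEmpty (Fin 0) := inferInstance
    simp
  | succ N ih =>
    have h0 : (0 : X → ℝ) ≤ g := fun ξ => hg ξ
    have h1 : (0 : (Fin N → X) → ℝ) ≤ fun f => ∏ c, g (f c) :=
      fun f => Finset.prod_nonneg fun c _ => hg (f c)
    have hs := Summable.mul_of_nonneg h.summable ih.summable h0 h1
    have hprod := h.mul ih hs
    have e := (Fin.consEquiv (fun _ => X)).hasSum_iff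
      (f := fun f : Fin (N + 1) → X => ∏ c, g (f c)) (a := a * a ^ N)
    have e2 : ((fun f : Fin (N + 1) → X => ∏ c, g (f c)) ∘ ⇑(Fin.consEquiv (fun _ => X)))
        = fun z : X × (Fin N → X) => g z.1 * ∏ c, g (z.2 c) := by
      funext z
      simp [Fin.consEquiv, Fin.prod_univ_succ]
    rw [e2] at e
    rw [pow_succ']
    exact e.mp hprod

end product

section basic

variable {off : ℕ → ℝ} {lam : ℝ}

/-- Total mass. -/
noncomputable def gS (off : ℕ → ℝ) (lam : ℝ) (n : ℕ) (ω : Obs 3 n) : ℝ := ∑ i, gwLik 3 off lam n i ω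

/-- Posterior vector. -/
noncomputable def gy (off : ℕ → ℝ) (lam : ℝ) (n : ℕ) (ω : Obs 3 n) (i : Fin 3) : ℝ :=
  3 * gwLik 3 off lam n i ω / gS off lam n ω - 1

/-- Marginal probability. -/
noncomputable def gp (off : ℕ → ℝ) (lam : ℝ) (n : ℕ) (ω : Obs 3 n) : ℝ := gS off lam n ω / 3

lemma gwLik_succ (n : ℕ) (i : Fin 3) (N : ℕ) (f : Fin N → Obs 3 n) :
    gwLik 3 off lam (n + 1) i ⟨N, f⟩
      = off N * ∏ c : Fin N, ∑ j : Fin 3, potts 3 lam i j * gwLik 3 off lam n j (f c) := rfl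

lemma gwLik_nonneg (hoff : ∀ N, 0 ≤ off N) (h0 : 0 ≤ lam) (h1 : lam ≤ 1) (n : ℕ) (i : Fin 3)
    (ω : Obs 3 n) : 0 ≤ gwLik 3 off lam n i ω := by
  induction n generalizing i with
  | zero =>
    show 0 ≤ (if ω = i then (1 : ℝ) else 0)
    split_ifs <;> norm_num
  | succ n ih =>
    obtain ⟨N, f⟩ := ω
    rw [gwLik_succ]
    refine mul_nonneg (hoff N) (Finset.prod_nonneg fun c _ => Finset.sum_nonneg fun j _ => ?_)
    exact mul_nonneg (potts_nonneg h0 h1 i j) (ih _ _)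

lemma gS_pos (hoff : ∀ N, 0 < off N) (h0 : 0 ≤ lam) (h1 : lam < 1) (n : ℕ) (ω : Obs 3 n) :
    0 < gS off lam n ω := by
  have hoff' : ∀ N, 0 ≤ off N := fun N => (hoff N).le
  induction n with
  | zero =>
    unfold gS
    have h : gwLik 3 off lam 0 ω ω = 1 := by
      show (if ω = ω then (1 : ℝ) else 0) = 1
      simp
    have h2 : ∀ i ∈ (Finset.univ : Finset (Fin 3)), 0 ≤ gwLik 3 off lam 0 i ω :=
      fun i _ => gwLik_nonneg hoff' h0 h1.le 0 i ω
    have h3 := Finset.single_le_sum h2 (Finset.mem_univ ω)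
    rw [h] at h3
    linarith
  | succ n ih =>
    obtain ⟨N, f⟩ := ω
    unfold gS
    refine Finset.sum_pos (fun i _ => ?_) ⟨0, Finset.mem_univ _⟩
    rw [gwLik_succ]
    refine mul_pos (hoff N) (Finset.prod_pos fun c _ => ?_)
    rw [potts_sum]
    have h2 := ih (f c)
    unfold gS at h2
    have h3 := gwLik_nonneg hoff' h0 h1.le n i (f c)
    have h4 : 0 < (1 - lam) / 3 := by linarith
    have h5 : 0 ≤ lam * gwLik 3 off lam n i (f c) := mul_nonneg h0 h3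
    have h6 := mul_pos h4 h2
    linarith

lemma gp_pos (hoff : ∀ N, 0 < off N) (h0 : 0 ≤ lam) (h1 : lam < 1) (n : ℕ) (ω : Obs 3 n) :
    0 < gp off lam n ω := by
  unfold gp
  have := gS_pos hoff h0 h1 n ω
  positivity

lemma gy_sum (hoff : ∀ N, 0 < off N) (h0 : 0 ≤ lam) (h1 : lam < 1) (n : ℕ) (ω : Obs 3 n) :
    ∑ i, gy off lam n ω i = 0 := by
  unfold gy
  have hS := gS_pos hoff h0 h1 n ω
  rw [Finset.sum_sub_distrib, ← Finset.sum_div, ← Finset.mul_sum]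
  change 3 * gS off lam n ω / gS off lam n ω - _ = 0
  field_simp
  simp

lemma gy_ge (hoff : ∀ N, 0 < off N) (h0 : 0 ≤ lam) (h1 : lam < 1) (n : ℕ) (ω : Obs 3 n) (i : Fin 3) :
    -1 ≤ gy off lam n ω i := by
  unfold gy
  have hS := gS_pos hoff h0 h1 n ω
  have := gwLik_nonneg (fun N => (hoff N).le) h0 h1.le n i ω
  have : 0 ≤ 3 * gwLik 3 off lam n i ω / gS off lam n ω := by positivity
  linarith

/-- The message passed through an edge. -/
lemma gmessage (hoff : ∀ N, 0 < off N) (h0 : 0 ≤ lam) (h1 : lam < 1) (n : ℕ) (ξ : Obs 3 n) (i : Fin 3) :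
    ∑ j, potts 3 lam i j * gwLik 3 off lam n j ξ
      = gp off lam n ξ * (1 + lam * gy off lam n ξ i) := by
  rw [potts_sum]
  have hS := gS_pos hoff h0 h1 n ξ
  unfold gp gy
  change _ + (1 - lam) / 3 * gS off lam n ξ = _
  field_simp
  ring

/-- The likelihood at the next level. -/
lemma gwLik_succ' (hoff : ∀ N, 0 < off N) (h0 : 0 ≤ lam) (h1 : lam < 1) (n : ℕ) (i : Fin 3) (N : ℕ)
    (f : Fin N → Obs 3 n) :
    gwLik 3 off lam (n + 1) i ⟨N, f⟩
      = (off N * ∏ c, gp off lam n (f c)) * ∏ c, (1 + lam * gy off lam n (f c) i) := by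
  rw [gwLik_succ, mul_assoc, ← Finset.prod_mul_distrib]
  congr 1
  refine Finset.prod_congr rfl fun c _ => ?_
  rw [gmessage hoff h0 h1]

/-- The likelihoods of a colour sum to one. -/
lemma gwLik_hasSum (hoff : ∀ N, 0 ≤ off N) (hsum : HasSum off 1) (h0 : 0 ≤ lam) (h1 : lam ≤ 1)
    (n : ℕ) (i : Fin 3) : HasSum (fun ω : Obs 3 n => gwLik 3 off lam n i ω) 1 := by
  induction n generalizing i with
  | zero =>
    have := hasSum_fintype (fun ω : Fin 3 => gwLik 3 off lam 0 i ω)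
    have e : ∑ ω : Fin 3, gwLik 3 off lam 0 i ω = 1 := by
      show ∑ ω : Fin 3, (if ω = i then (1 : ℝ) else 0) = 1
      simp
    rw [e] at this
    exact this
  | succ n ih =>
    -- one edge
    set g : Obs 3 n → ℝ := fun ξ => ∑ j : Fin 3, potts 3 lam i j * gwLik 3 off lam n j ξ with hg
    have hg0 : ∀ ξ, 0 ≤ g ξ := fun ξ => Finset.sum_nonneg fun j _ =>
      mul_nonneg (potts_nonneg h0 h1 i j) (gwLik_nonneg hoff h0 h1 n j ξ)
    have hg1 : HasSum g 1 := by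
      have := hasSum_sum (s := Finset.univ) (f := fun (j : Fin 3) (ξ : Obs 3 n) =>
        potts 3 lam i j * gwLik 3 off lam n j ξ) (a := fun j => potts 3 lam i j * 1)
        (fun j _ => (ih j).mul_left _)
      have e : ∑ j : Fin 3, potts 3 lam i j * 1 = 1 := by
        have := potts_sum lam i (fun _ => 1)
        simp only [mul_one] at this ⊢
        rw [this]
        simp
      rw [e] at this
      exact this
    have hfib : ∀ N, HasSum (fun f : Fin N → Obs 3 n => off N * ∏ c, g (f c)) (off N) := by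
      intro N
      have := (hasSum_pi_prod g hg0 1 hg1 N).mul_left (off N)
      simpa using this
    have hnn : ∀ ω : (Σ N : ℕ, (Fin N → Obs 3 n)), 0 ≤ off ω.1 * ∏ c, g (ω.2 c) := fun ω =>
      mul_nonneg (hoff _) (Finset.prod_nonneg fun c _ => hg0 _)
    have hS : Summable (fun ω : (Σ N : ℕ, (Fin N → Obs 3 n)) => off ω.1 * ∏ c, g (ω.2 c)) := by
      rw [summable_sigma_of_nonneg hnn]
      refine ⟨fun N => (hfib N).summable, ?_⟩
      have : (fun N => ∑' f : Fin N → Obs 3 n, off (⟨N, f⟩ : Σ N : ℕ, (Fin N → Obs 3 n)).1 *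
          ∏ c, g ((⟨N, f⟩ : Σ N : ℕ, (Fin N → Obs 3 n)).2 c)) = off := by
        funext N
        exact (hfib N).tsum_eq
      rw [this]
      exact hsum.summable
    exact HasSum.sigma_of_hasSum hsum hfib hS

lemma gp_hasSum (hoff : ∀ N, 0 ≤ off N) (hsum : HasSum off 1) (h0 : 0 ≤ lam) (h1 : lam ≤ 1) (n : ℕ) :
    HasSum (fun ω : Obs 3 n => gp off lam n ω) 1 := by
  have := hasSum_sum (s := Finset.univ) (f := fun (j : Fin 3) (ξ : Obs 3 n) =>
        gwLik 3 off lam n j ξ) (a := fun _ => 1) (fun j _ => gwLik_hasSum hoff hsum h0 h1 n j)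
  have h2 := this.div_const 3
  simp only [Finset.sum_const, Finset.card_univ, Fintype.card_fin, smul_eq_mul, mul_one] at h2
  have e : ((3 : ℕ) : ℝ) / 3 = 1 := by norm_num
  simp only [nsmul_eq_mul, mul_one] at h2
  rw [e] at h2
  exact h2

/-- The action of a permutation of the colours on the observations. -/
def obsPerm (g : Equiv.Perm (Fin 3)) : (n : ℕ) → Obs 3 n ≃ Obs 3 n
  | 0 => g
  | n + 1 => Equiv.sigmaCongrRight fun _ => Equiv.arrowCongr (Equiv.refl _) (obsPerm g n)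

lemma gwLik_perm (g : Equiv.Perm (Fin 3)) (n : ℕ) (i : Fin 3) (ω : Obs 3 n) :
    gwLik 3 off lam n (g i) (obsPerm g n ω) = gwLik 3 off lam n i ω := by
  induction n generalizing i with
  | zero =>
    show (if g ω = g i then (1 : ℝ) else 0) = if ω = i then 1 else 0
    simp
  | succ n ih =>
    obtain ⟨N, f⟩ := ω
    have e : obsPerm g (n + 1) ⟨N, f⟩ = ⟨N, fun c => obsPerm g n (f c)⟩ := rfl
    rw [e, gwLik_succ, gwLik_succ]
    congr 1
    refine Finset.prod_congr rfl fun c _ => ?_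
    rw [← Equiv.sum_comp g]
    refine Finset.sum_congr rfl fun j _ => ?_
    rw [potts_perm, ih]

lemma gS_perm (g : Equiv.Perm (Fin 3)) (n : ℕ) (ω : Obs 3 n) :
    gS off lam n (obsPerm g n ω) = gS off lam n ω := by
  unfold gS
  rw [← Equiv.sum_comp g]
  exact Finset.sum_congr rfl fun i _ => gwLik_perm g n i ω

lemma gy_perm (g : Equiv.Perm (Fin 3)) (n : ℕ) (ω : Obs 3 n) (i : Fin 3) :
    gy off lam n (obsPerm g n ω) i = gy off lam n ω (g⁻¹ i) := by
  unfold gy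
  rw [gS_perm]
  have := gwLik_perm (off := off) (lam := lam) g n (g⁻¹ i) ω
  rw [show g (g⁻¹ i) = i by simp] at this
  rw [this]

/-- The law of the posterior is symmetric. -/
lemma glaw_sym (n : ℕ) (g : Equiv.Perm (Fin 3)) (f : (Fin 3 → ℝ) → ℝ) :
    ∑' ω : Obs 3 n, gp off lam n ω * f (gy off lam n ω)
      = ∑' ω : Obs 3 n, gp off lam n ω * f (fun i => gy off lam n ω (g i)) := by
  rw [← (obsPerm g⁻¹ n).tsum_eq]
  refine tsum_congr fun ω => ?_
  unfold gp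
  rw [gS_perm]
  congr 2
  funext i
  rw [gy_perm]
  simp

end basic

section law

variable {X : Type*} {p : X → ℝ} {y : X → Fin 3 → ℝ} {lam : ℝ}

/-- The law of the messages. -/
structure Law3 (p : X → ℝ) (y : X → Fin 3 → ℝ) (lam : ℝ) : Prop where
  hp : ∀ ξ, 0 ≤ p ξ
  hp1 : HasSum p 1
  hy : ∀ ξ, Msg (y ξ)
  hsym : ∀ (g : Equiv.Perm (Fin 3)) (f : (Fin 3 → ℝ) → ℝ),
    ∑' ξ, p ξ * f (y ξ) = ∑' ξ, p ξ * f (fun i => y ξ (g i))
  hl0 : 0 ≤ lam
  hl1 : lam < 1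

/-- The merge of `k` messages, outermost message first. -/
noncomputable def mT (p : X → ℝ) (y : X → Fin 3 → ℝ) (lam : ℝ) :
    ℕ → ((Fin 3 → ℝ) → ℝ) → (Fin 3 → ℝ) → ℝ
  | 0, G, x => G x
  | k + 1, G, x => ∑' ξ, p ξ * mT p y lam k G (fun i => x i * (1 + lam * y ξ i))

lemma mT_zero (G : (Fin 3 → ℝ) → ℝ) (x : Fin 3 → ℝ) : mT p y lam 0 G x = G x := rfl

lemma mT_succ (k : ℕ) (G : (Fin 3 → ℝ) → ℝ) (x : Fin 3 → ℝ) :
    mT p y lam (k + 1) G x = ∑' ξ, p ξ * mT p y lam k G (fun i => x i * (1 + lam * y ξ i)) := rfl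

/-- Peeling off the last message instead of the first one. -/
lemma mT_succ' (k : ℕ) (G : (Fin 3 → ℝ) → ℝ) (x : Fin 3 → ℝ) :
    mT p y lam (k + 1) G x
      = mT p y lam k (fun x' => ∑' ξ, p ξ * G (fun i => x' i * (1 + lam * y ξ i))) x := by
  induction k generalizing x with
  | zero => rfl
  | succ k ih =>
    have e1 := mT_succ (p := p) (y := y) (lam := lam) (k + 1) G x
    have e2 := mT_succ (p := p) (y := y) (lam := lam) k
      (fun x' => ∑' ξ, p ξ * G (fun i => x' i * (1 + lam * y ξ i))) x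
    rw [e1, e2]
    exact tsum_congr fun ξ => by rw [ih]

/-- Linear growth. -/
def HB (G : (Fin 3 → ℝ) → ℝ) (C : ℝ) : Prop :=
  ∀ x : Fin 3 → ℝ, (∀ i, 0 < x i) → |G x| ≤ (∑ i, x i) / 3 * C

lemma msg_le3 {v : Fin 3 → ℝ} (hv : Msg v) (i : Fin 3) : v i ≤ 2 := by
  have h := hv.1
  rw [Fin.sum_univ_three] at h
  have h0 := hv.2 0
  have h1 := hv.2 1
  have h2 := hv.2 2
  fin_cases i <;> simp only [Fin.zero_eta, Fin.mk_one, Fin.reduceFinMk] <;> linarith

lemma msg_perm {v : Fin 3 → ℝ} (hv : Msg v) (g : Equiv.Perm (Fin 3)) :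
    Msg (fun i => v (g i)) :=
  ⟨by rw [← hv.1]; exact Equiv.sum_comp g v, fun i => hv.2 _⟩

lemma msg_zero : Msg (fun _ => 0) := ⟨by simp, fun _ => by norm_num⟩

lemma s2_le3 {v : Fin 3 → ℝ} (hv : Msg v) : s2 v ≤ 2 := by
  have key : ∀ i, v i ^ 2 ≤ v i + 2 := fun i => by
    nlinarith [hv.2 i, msg_le3 hv i]
  have := Finset.sum_le_sum fun i (_ : i ∈ Finset.univ) => key i
  rw [Finset.sum_add_distrib, hv.1] at this
  simp at this
  unfold s2
  linarith

lemma msg_pos (hL : Law3 p y lam) (ξ : X) (i : Fin 3) : 0 < 1 + lam * y ξ i := by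
  have h1 := (hL.hy ξ).2 i
  nlinarith [hL.hl0, hL.hl1, mul_nonneg hL.hl0 (by linarith : 0 ≤ y ξ i + 1)]

lemma msg_le (hL : Law3 p y lam) (ξ : X) (i : Fin 3) : 1 + lam * y ξ i ≤ 1 + 2 * lam := by
  have h1 := msg_le3 (hL.hy ξ) i
  nlinarith [hL.hl0, mul_le_mul_of_nonneg_left h1 hL.hl0]

lemma msg_x_pos (hL : Law3 p y lam) (x : Fin 3 → ℝ) (hx : ∀ i, 0 < x i) (ξ : X) (i : Fin 3) :
    0 < x i * (1 + lam * y ξ i) := mul_pos (hx i) (msg_pos hL ξ i)

lemma msg_sum_le (hL : Law3 p y lam) (x : Fin 3 → ℝ) (hx : ∀ i, 0 < x i) (ξ : X) :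
    ∑ i, x i * (1 + lam * y ξ i) ≤ (∑ i, x i) * (1 + 2 * lam) := by
  rw [Finset.sum_mul]
  exact Finset.sum_le_sum fun i _ => mul_le_mul_of_nonneg_left (msg_le hL ξ i) (hx i).le

lemma sum_pos3 (x : Fin 3 → ℝ) (hx : ∀ i, 0 < x i) : 0 < ∑ i, x i :=
  Finset.sum_pos (fun i _ => hx i) ⟨0, Finset.mem_univ _⟩

lemma summ_p_mul (hL : Law3 p y lam) (F : X → ℝ) (B : ℝ) (hF : ∀ ξ, |F ξ| ≤ B) :
    Summable fun ξ => p ξ * F ξ := by
  refine Summable.of_norm_bounded (g := fun ξ => p ξ * B) (hL.hp1.summable.mul_right B) fun ξ => ?_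
  rw [norm_mul, Real.norm_eq_abs, Real.norm_eq_abs, abs_of_nonneg (hL.hp ξ)]
  exact mul_le_mul_of_nonneg_left (hF ξ) (hL.hp ξ)

lemma hb_step (hL : Law3 p y lam) {G : (Fin 3 → ℝ) → ℝ} {C : ℝ} (hG : HB G C) (hC : 0 ≤ C)
    (x : Fin 3 → ℝ) (hx : ∀ i, 0 < x i) (ξ : X) :
    |G (fun i => x i * (1 + lam * y ξ i))| ≤ (∑ i, x i) / 3 * (C * (1 + 2 * lam)) := by
  refine (hG _ (msg_x_pos hL x hx ξ)).trans ?_
  have h1 := msg_sum_le hL x hx ξ
  have h2 : (∑ i, x i * (1 + lam * y ξ i)) / 3 ≤ (∑ i, x i) * (1 + 2 * lam) / 3 :=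
    div_le_div_of_nonneg_right h1 (by norm_num)
  calc _ ≤ ((∑ i, x i) * (1 + 2 * lam) / 3) * C := mul_le_mul_of_nonneg_right h2 hC
    _ = _ := by ring

lemma hb_T (hL : Law3 p y lam) {G : (Fin 3 → ℝ) → ℝ} {C : ℝ} (hG : HB G C) (hC : 0 ≤ C) :
    HB (fun x => ∑' ξ, p ξ * G (fun i => x i * (1 + lam * y ξ i))) (C * (1 + 2 * lam)) := by
  intro x hx
  have hb := hb_step hL hG hC x hx
  have hg : HasSum (fun ξ => p ξ * ((∑ i, x i) / 3 * (C * (1 + 2 * lam))))
      ((∑ i, x i) / 3 * (C * (1 + 2 * lam))) := by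
    simpa using hL.hp1.mul_right ((∑ i, x i) / 3 * (C * (1 + 2 * lam)))
  have h := tsum_of_norm_bounded hg (f := fun ξ => p ξ * G (fun i => x i * (1 + lam * y ξ i)))
    (fun ξ => by
      rw [norm_mul, Real.norm_eq_abs, Real.norm_eq_abs, abs_of_nonneg (hL.hp ξ)]
      exact mul_le_mul_of_nonneg_left (hb ξ) (hL.hp ξ))
  rwa [Real.norm_eq_abs] at h

lemma hb_mT (hL : Law3 p y lam) {G : (Fin 3 → ℝ) → ℝ} {C : ℝ} (hG : HB G C) (hC : 0 ≤ C) (k : ℕ) :
    HB (mT p y lam k G) (C * (1 + 2 * lam) ^ k) := by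
  have hM : 0 ≤ 1 + 2 * lam := by linarith [hL.hl0]
  induction k with
  | zero =>
    intro x hx
    simpa [mT_zero] using hG x hx
  | succ k ih =>
    have h := hb_T hL ih (by positivity)
    intro x hx
    have h2 := h x hx
    have e : C * (1 + 2 * lam) ^ (k + 1) = C * (1 + 2 * lam) ^ k * (1 + 2 * lam) := by ring
    rw [e]
    exact h2

lemma summ_T (hL : Law3 p y lam) {G : (Fin 3 → ℝ) → ℝ} {C : ℝ} (hG : HB G C) (hC : 0 ≤ C)
    (x : Fin 3 → ℝ) (hx : ∀ i, 0 < x i) :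
    Summable fun ξ => p ξ * G (fun i => x i * (1 + lam * y ξ i)) :=
  summ_p_mul hL _ _ (hb_step hL hG hC x hx)

lemma summ_mT (hL : Law3 p y lam) {G : (Fin 3 → ℝ) → ℝ} {C : ℝ} (hG : HB G C) (hC : 0 ≤ C) (k : ℕ)
    (x : Fin 3 → ℝ) (hx : ∀ i, 0 < x i) :
    Summable fun ξ => p ξ * mT p y lam k G (fun i => x i * (1 + lam * y ξ i)) := by
  have hM : 0 ≤ 1 + 2 * lam := by linarith [hL.hl0]
  exact summ_T hL (hb_mT hL hG hC k) (by positivity) x hx

lemma mT_add (hL : Law3 p y lam) {G G' : (Fin 3 → ℝ) → ℝ} {C C' : ℝ} (hG : HB G C) (hG' : HB G' C')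
    (hC : 0 ≤ C) (hC' : 0 ≤ C') (k : ℕ) (x : Fin 3 → ℝ) (hx : ∀ i, 0 < x i) :
    mT p y lam k (fun x => G x + G' x) x = mT p y lam k G x + mT p y lam k G' x := by
  induction k generalizing x with
  | zero => rfl
  | succ k ih =>
    rw [mT_succ, mT_succ, mT_succ]
    have h1 := summ_mT hL hG hC k x hx
    have h2 := summ_mT hL hG' hC' k x hx
    rw [← h1.tsum_add h2]
    refine tsum_congr fun ξ => ?_
    rw [ih _ (msg_x_pos hL x hx ξ)]
    ring

lemma mT_const_mul (k : ℕ) (r : ℝ) (G : (Fin 3 → ℝ) → ℝ) (x : Fin 3 → ℝ) :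
    mT p y lam k (fun x => r * G x) x = r * mT p y lam k G x := by
  induction k generalizing x with
  | zero => rfl
  | succ k ih =>
    rw [mT_succ, mT_succ, ← tsum_mul_left]
    refine tsum_congr fun ξ => ?_
    rw [ih]
    ring

lemma mT_mono (hL : Law3 p y lam) {G G' : (Fin 3 → ℝ) → ℝ} {C C' : ℝ} (hG : HB G C) (hG' : HB G' C')
    (hC : 0 ≤ C) (hC' : 0 ≤ C') (h : ∀ x, (∀ i, 0 < x i) → G x ≤ G' x) (k : ℕ) (x : Fin 3 → ℝ)
    (hx : ∀ i, 0 < x i) : mT p y lam k G x ≤ mT p y lam k G' x := by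
  induction k generalizing x with
  | zero => exact h x hx
  | succ k ih =>
    rw [mT_succ, mT_succ]
    exact (summ_mT hL hG hC k x hx).tsum_le_tsum
      (fun ξ => mul_le_mul_of_nonneg_left (ih _ (msg_x_pos hL x hx ξ)) (hL.hp ξ))
      (summ_mT hL hG' hC' k x hx)

lemma mT_nonneg (hL : Law3 p y lam) {G : (Fin 3 → ℝ) → ℝ} (h : ∀ x, (∀ i, 0 < x i) → 0 ≤ G x)
    (k : ℕ) (x : Fin 3 → ℝ) (hx : ∀ i, 0 < x i) : 0 ≤ mT p y lam k G x := by
  induction k generalizing x with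
  | zero => exact h x hx
  | succ k ih =>
    exact tsum_nonneg fun ξ => mul_nonneg (hL.hp ξ) (ih _ (msg_x_pos hL x hx ξ))

lemma hb_mass : HB (fun x => (∑ i, x i) / 3) 1 := by
  intro x hx
  have := sum_pos3 x hx
  rw [abs_of_nonneg (by positivity), mul_one]

lemma hb_const {G : (Fin 3 → ℝ) → ℝ} {C : ℝ} (hG : HB G C) (r : ℝ) :
    HB (fun x => r * G x) (|r| * C) := by
  intro x hx
  rw [abs_mul]
  have := mul_le_mul_of_nonneg_left (hG x hx) (abs_nonneg r)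
  calc _ ≤ _ := this
    _ = _ := by ring

lemma hb_add {G G' : (Fin 3 → ℝ) → ℝ} {C C' : ℝ} (hG : HB G C) (hG' : HB G' C') :
    HB (fun x => G x + G' x) (C + C') := by
  intro x hx
  refine (abs_add_le _ _).trans ?_
  rw [mul_add]
  exact add_le_add (hG x hx) (hG' x hx)

lemma hb_Hom {f : (Fin 3 → ℝ) → ℝ} {C : ℝ} (hf : ∀ v, Msg v → |f v| ≤ C) : HB (Hom f) C := by
  intro x hx
  have := sum_pos3 x hx
  rw [Hom_eq, abs_mul, abs_of_nonneg (by positivity)]
  exact mul_le_mul_of_nonneg_left (hf _ (zOf_msg hx)) (by positivity)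

lemma mT_lin (hL : Law3 p y lam) {G A B : (Fin 3 → ℝ) → ℝ} {C CA CB : ℝ} (hG : HB G C) (hA : HB A CA)
    (hB : HB B CB) (hC : 0 ≤ C) (hCA : 0 ≤ CA) (hCB : 0 ≤ CB) (r1 r2 r3 : ℝ) (k : ℕ)
    (x : Fin 3 → ℝ) (hx : ∀ i, 0 < x i) :
    mT p y lam k (fun x => G x + (r1 * ((∑ i, x i) / 3) + (r2 * A x + r3 * B x))) x
      = mT p y lam k G x + (r1 * mT p y lam k (fun x => (∑ i, x i) / 3) x
          + (r2 * mT p y lam k A x + r3 * mT p y lam k B x)) := by
  have h2 := hb_const hA r2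
  have h3 := hb_const hB r3
  have h1 := hb_const hb_mass r1
  have c1 : 0 ≤ |r1| * 1 := by positivity
  have c2 : 0 ≤ |r2| * CA := by positivity
  have c3 : 0 ≤ |r3| * CB := by positivity
  have h23 := hb_add h2 h3
  have h123 := hb_add h1 h23
  have e1 := mT_add hL hG h123 hC (by positivity) k x hx
  have e2 := mT_add hL h1 h23 c1 (by positivity) k x hx
  have e3 := mT_add hL h2 h3 c2 c3 k x hx
  have e4 := mT_const_mul (p := p) (y := y) (lam := lam) k r1 (fun x => (∑ i, x i) / 3) x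
  have e5 := mT_const_mul (p := p) (y := y) (lam := lam) k r2 A x
  have e6 := mT_const_mul (p := p) (y := y) (lam := lam) k r3 B x
  rw [e1, e2, e3, e4, e5, e6]

lemma y_summ (hL : Law3 p y lam) (j : Fin 3) : Summable fun ξ => p ξ * y ξ j :=
  summ_p_mul hL _ 2 fun ξ =>
    abs_le.2 ⟨by linarith [(hL.hy ξ).2 j], msg_le3 (hL.hy ξ) j⟩

lemma mean_zeroT (hL : Law3 p y lam) (i : Fin 3) : ∑' ξ, p ξ * y ξ i = 0 := by
  have h : ∀ j : Fin 3, ∑' ξ, p ξ * y ξ j = ∑' ξ, p ξ * y ξ i := by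
    intro j
    have := hL.hsym (Equiv.swap i j) (fun v => v i)
    simp only [Equiv.swap_apply_left] at this
    exact this.symm
  have h3 : ∑ j : Fin 3, ∑' ξ, p ξ * y ξ j = 0 := by
    rw [← Summable.tsum_finsetSum (fun j _ => y_summ hL j)]
    have : ∀ ξ, ∑ j : Fin 3, p ξ * y ξ j = 0 := fun ξ => by
      rw [← Finset.mul_sum, (hL.hy ξ).1, mul_zero]
    simp [this]
  simp only [h, Finset.sum_const, Finset.card_univ, Fintype.card_fin] at h3
  simpa using h3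

lemma mass_stepT (hL : Law3 p y lam) (x : Fin 3 → ℝ) :
    ∑' ξ, p ξ * ((∑ i, x i * (1 + lam * y ξ i)) / 3) = (∑ i, x i) / 3 := by
  have e : ∀ ξ, p ξ * ((∑ i, x i * (1 + lam * y ξ i)) / 3)
      = p ξ * ((∑ i, x i) / 3) + ∑ i, (lam / 3 * x i) * (p ξ * y ξ i) := by
    intro ξ
    simp only [Fin.sum_univ_three]
    ring
  simp only [e]
  have h1 : Summable fun ξ => p ξ * ((∑ i, x i) / 3) := hL.hp1.summable.mul_right _
  have h2 : Summable fun ξ => ∑ i, (lam / 3 * x i) * (p ξ * y ξ i) :=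
    summable_sum fun i _ => (y_summ hL i).mul_left _
  rw [h1.tsum_add h2, tsum_mul_right, hL.hp1.tsum_eq, one_mul,
    Summable.tsum_finsetSum (fun i _ => (y_summ hL i).mul_left _)]
  simp only [tsum_mul_left, mean_zeroT hL]
  simp

lemma mT_mass (hL : Law3 p y lam) (k : ℕ) (x : Fin 3 → ℝ) :
    mT p y lam k (fun x => (∑ i, x i) / 3) x = (∑ i, x i) / 3 := by
  induction k generalizing x with
  | zero => rfl
  | succ k ih =>
    rw [mT_succ]
    simp only [ih]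
    exact mass_stepT hL x

lemma avg_symT (hL : Law3 p y lam) (f : (Fin 3 → ℝ) → ℝ) (B : ℝ) (hf : ∀ v, Msg v → |f v| ≤ B) :
    ∑' ξ, p ξ * f (y ξ)
      = ∑' ξ, p ξ * ((1 / 6 : ℝ) * ∑ g : Equiv.Perm (Fin 3), f (fun i => y ξ (g i))) := by
  have hsg : ∀ g : Equiv.Perm (Fin 3), Summable fun ξ => p ξ * f (fun i => y ξ (g i)) := fun g =>
    summ_p_mul hL _ B fun ξ => hf _ (msg_perm (hL.hy ξ) g)
  have e : ∀ ξ, p ξ * ((1 / 6 : ℝ) * ∑ g : Equiv.Perm (Fin 3), f (fun i => y ξ (g i)))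
      = (1 / 6 : ℝ) * ∑ g : Equiv.Perm (Fin 3), p ξ * f (fun i => y ξ (g i)) := by
    intro ξ
    rw [Finset.mul_sum, Finset.mul_sum, Finset.mul_sum]
    refine Finset.sum_congr rfl fun g _ => ?_
    ring
  simp only [e]
  rw [tsum_mul_left, Summable.tsum_finsetSum (fun g _ => hsg g)]
  have h2 : ∀ g : Equiv.Perm (Fin 3), ∑' ξ, p ξ * f (fun i => y ξ (g i)) = ∑' ξ, p ξ * f (y ξ) :=
    fun g => (hL.hsym g f).symm
  simp only [h2, Finset.sum_const, Finset.card_univ, Fintype.card_perm, Fintype.card_fin]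
  simp [Nat.factorial]

lemma avg_abs_le (F : (Fin 3 → ℝ) → ℝ) (B : ℝ) (hF : ∀ w, Msg w → |F w| ≤ B) (v : Fin 3 → ℝ)
    (hv : Msg v) : |(1 / 6 : ℝ) * ∑ g : Equiv.Perm (Fin 3), F (fun i => v (g i))| ≤ B := by
  rw [abs_mul, abs_of_nonneg (by norm_num : (0 : ℝ) ≤ 1 / 6)]
  have h6 : |∑ g : Equiv.Perm (Fin 3), F (fun i => v (g i))| ≤ ∑ _g : Equiv.Perm (Fin 3), B :=
    (Finset.abs_sum_le_sum_abs _ _).trans (Finset.sum_le_sum fun g _ => hF _ (msg_perm hv g))
  simp only [Finset.sum_const, Finset.card_univ, Fintype.card_perm, Fintype.card_fin] at h6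
  have h7 : ((3 : ℕ).factorial : ℕ) • B = 6 * B := by
    simp [Nat.factorial]
  rw [h7] at h6
  linarith

lemma kp_bd (hl0 : 0 ≤ lam) {f : (Fin 3 → ℝ) → ℝ} {C : ℝ} (hf : ∀ v, Msg v → |f v| ≤ C) (hC : 0 ≤ C)
    (l1 : lam < 1) (z : Fin 3 → ℝ) (hz : Msg z) (hz1 : ∀ i, 0 < 1 + z i) (v : Fin 3 → ℝ) (hv : Msg v) :
    |Kp f z (fun i => lam * v i)| ≤ (1 + 2 * lam) * C := by
  have hm0 : ∀ i, 0 < 1 + lam * v i := fun i => by
    nlinarith [hv.2 i, mul_nonneg hl0 (by linarith [hv.2 i] : 0 ≤ v i + 1)]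
  have hm1 : ∀ i, 1 + lam * v i ≤ 1 + 2 * lam := fun i => by
    nlinarith [mul_le_mul_of_nonneg_left (msg_le3 hv i) hl0]
  have hpos : ∀ i, 0 < (1 + z i) * (1 + lam * v i) := fun i => mul_pos (hz1 i) (hm0 i)
  have h2 := hb_Hom hf _ hpos
  have e : Kp f z (fun i => lam * v i) = Hom f (fun i => (1 + z i) * (1 + lam * v i)) := rfl
  rw [e]
  refine h2.trans ?_
  have hs : ∑ i, (1 + z i) * (1 + lam * v i) ≤ ∑ i, (1 + z i) * (1 + 2 * lam) :=
    Finset.sum_le_sum fun i _ => mul_le_mul_of_nonneg_left (hm1 i) (hz1 i).le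
  rw [← Finset.sum_mul, Finset.sum_add_distrib, hz.1] at hs
  simp only [Finset.sum_const, Finset.card_univ, Fintype.card_fin, nsmul_eq_mul, mul_one, add_zero] at hs
  push_cast at hs
  have h3 : (∑ i, (1 + z i) * (1 + lam * v i)) / 3 ≤ 1 + 2 * lam := by linarith
  exact mul_le_mul_of_nonneg_right h3 hC

lemma zOf_pos (x : Fin 3 → ℝ) (hx : ∀ i, 0 < x i) (i : Fin 3) : 0 < 1 + zOf x i := by
  have hS := sum_pos3 x hx
  have : 0 < 3 * x i / ∑ k, x k := by
    have := hx i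
    positivity
  simp only [zOf]
  linarith

lemma T_eqT (hL : Law3 p y lam) {f : (Fin 3 → ℝ) → ℝ} {C : ℝ} (hf : ∀ v, Msg v → |f v| ≤ C)
    (hC : 0 ≤ C) (x : Fin 3 → ℝ) (hx : ∀ i, 0 < x i) :
    ∑' ξ, p ξ * Hom f (fun i => x i * (1 + lam * y ξ i))
      = (∑ i, x i) / 3 * ∑' ξ, p ξ * ((1 / 6 : ℝ) * ∑ g : Equiv.Perm (Fin 3),
          Kp f (zOf x) (fun i => lam * y ξ (g i))) := by
  have hS := sum_pos3 x hx
  have e1 : ∀ ξ, Hom f (fun i => x i * (1 + lam * y ξ i))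
      = (∑ i, x i) / 3 * Kp f (zOf x) (fun i => lam * y ξ i) :=
    fun ξ => Hom_mul f x _ hS.ne'
  have hB := kp_bd hL.hl0 hf hC hL.hl1 (zOf x) (zOf_msg hx) (zOf_pos x hx)
  have h := avg_symT hL (fun v => Kp f (zOf x) (fun i => lam * v i)) _ hB
  simp only at h
  rw [← h, ← tsum_mul_left]
  exact tsum_congr fun ξ => by rw [e1]; ring

lemma jensen_tsum {p : X → ℝ} (hp : ∀ ξ, 0 ≤ p ξ) (hp1 : HasSum p 1) (a : X → ℝ) (B : ℝ)
    (hB : ∀ ξ, |a ξ| ≤ B) : (∑' ξ, p ξ * a ξ) ^ 2 ≤ ∑' ξ, p ξ * a ξ ^ 2 := by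
  have hs : ∀ F : X → ℝ, ∀ B' : ℝ, (∀ ξ, |F ξ| ≤ B') → Summable fun ξ => p ξ * F ξ := by
    intro F B' hF
    refine Summable.of_norm_bounded (g := fun ξ => p ξ * B') (hp1.summable.mul_right B') fun ξ => ?_
    rw [norm_mul, Real.norm_eq_abs, Real.norm_eq_abs, abs_of_nonneg (hp ξ)]
    exact mul_le_mul_of_nonneg_left (hF ξ) (hp ξ)
  have h1 := hs a B hB
  have h2 := hs (fun ξ => a ξ ^ 2) (B ^ 2) (fun ξ => by
    rw [abs_pow]
    exact pow_le_pow_left₀ (abs_nonneg _) (hB ξ) 2)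
  set t := ∑' ξ, p ξ * a ξ with ht
  have e : ∀ ξ, p ξ * (a ξ - t) ^ 2 = p ξ * a ξ ^ 2 - (2 * t) * (p ξ * a ξ) + t ^ 2 * p ξ := fun ξ => by
    ring
  have h3 : 0 ≤ ∑' ξ, p ξ * (a ξ - t) ^ 2 := tsum_nonneg fun ξ => mul_nonneg (hp ξ) (sq_nonneg _)
  simp only [e] at h3
  rw [(h2.sub (h1.mul_left _)).tsum_add (hp1.summable.mul_left _), h2.tsum_sub (h1.mul_left _),
    tsum_mul_left, tsum_mul_left, hp1.tsum_eq, ← ht] at h3
  nlinarith

/-- One law-level step, with series. -/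
theorem law_stepT (hL : Law3 p y lam)
    {L a b a' b' : (Fin 3 → ℝ) → ℝ} {c c1 CL Ca Ca' : ℝ} (hc : 0 ≤ c) (hc1 : 0 ≤ c1)
    (hLb : ∀ v, Msg v → |L v| ≤ CL) (haB : ∀ v, Msg v → a v ≤ Ca) (haB' : ∀ v, Msg v → a' v ≤ Ca')
    (ha : ∀ v, Msg v → 0 ≤ a v) (hb : ∀ z, Msg z → 0 ≤ b z)
    (ha' : ∀ v, Msg v → 0 ≤ a' v) (hb' : ∀ z, Msg z → 0 ≤ b' z)
    (hfirst : ∀ v, Msg v → c1 * L v ≤ L (fun i => lam * v i))
    (hI : ∀ z v, Msg z → Msg v →
      a v * L z + b z * L v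
        ≤ (1 / 6) * ∑ g : Equiv.Perm (Fin 3), Kp L z (fun i => lam * v (g i)))
    (hM : ∀ z v, Msg z → Msg v →
      (1 / 6) * (∑ g : Equiv.Perm (Fin 3), Kp s2 z (fun i => lam * v (g i)))
        + a' v * L z + b' z * L v + c * s2 v * s2 z ^ 2 ≤ s2 z + lam ^ 2 * s2 v)
    (hLbar : 0 ≤ ∑' ξ, p ξ * L (y ξ)) :
    (∀ j : ℕ, 0 ≤ mT p y lam (j + 1) (Hom L) (fun _ => 1)) ∧
    (mT p y lam 1 (Hom s2) (fun _ => 1) = lam ^ 2 * (∑' ξ, p ξ * s2 (y ξ))) ∧
    (∀ k : ℕ, mT p y lam (k + 2) (Hom s2) (fun _ => 1)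
      ≤ ((k : ℝ) + 2) * lam ^ 2 * (∑' ξ, p ξ * s2 (y ξ))
        - c * lam ^ 4 * (∑' ξ, p ξ * s2 (y ξ)) ^ 3) := by
  classical
  have hp := hL.hp
  have hy := hL.hy
  have hl0 := hL.hl0
  have hl1 := hL.hl1
  have hM1 : 0 ≤ 1 + 2 * lam := by linarith
  have hCL : 0 ≤ CL := (abs_nonneg _).trans (hLb _ msg_zero)
  have hs2B : ∀ v, Msg v → |s2 v| ≤ 2 := fun v hv => by
    rw [abs_of_nonneg (s2_nonneg v)]
    exact s2_le3 hv
  set S2 : (Fin 3 → ℝ) → ℝ := fun v => s2 v ^ 2 with hS2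
  have hS2B : ∀ v, Msg v → |S2 v| ≤ 4 := fun v hv => by
    have h1 := s2_le3 hv
    have h2 := s2_nonneg v
    simp only [hS2]
    rw [abs_of_nonneg (sq_nonneg _)]
    nlinarith
  have hbL : HB (Hom L) CL := hb_Hom hLb
  have hbs : HB (Hom s2) 2 := hb_Hom hs2B
  have hbS : HB (Hom S2) 4 := hb_Hom hS2B
  have sL : Summable fun ξ => p ξ * L (y ξ) := summ_p_mul hL _ CL fun ξ => hLb _ (hy ξ)
  have sA : Summable fun ξ => p ξ * a (y ξ) := summ_p_mul hL _ Ca fun ξ => by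
    rw [abs_of_nonneg (ha _ (hy ξ))]
    exact haB _ (hy ξ)
  have sA' : Summable fun ξ => p ξ * a' (y ξ) := summ_p_mul hL _ Ca' fun ξ => by
    rw [abs_of_nonneg (ha' _ (hy ξ))]
    exact haB' _ (hy ξ)
  have sE : Summable fun ξ => p ξ * s2 (y ξ) := summ_p_mul hL _ 2 fun ξ => hs2B _ (hy ξ)
  set Lbar := ∑' ξ, p ξ * L (y ξ) with hLbardef
  set E := ∑' ξ, p ξ * s2 (y ξ) with hE
  set Abar := ∑' ξ, p ξ * a (y ξ) with hAbar
  set Abar' := ∑' ξ, p ξ * a' (y ξ) with hAbar'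
  have hLs : HasSum (fun ξ => p ξ * L (y ξ)) Lbar := sL.hasSum
  have hEs : HasSum (fun ξ => p ξ * s2 (y ξ)) E := sE.hasSum
  have hAs : HasSum (fun ξ => p ξ * a (y ξ)) Abar := sA.hasSum
  have hAs' : HasSum (fun ξ => p ξ * a' (y ξ)) Abar' := sA'.hasSum
  have hE0 : 0 ≤ E := tsum_nonneg fun ξ => mul_nonneg (hp ξ) (s2_nonneg _)
  have hAbar0 : 0 ≤ Abar := tsum_nonneg fun ξ => mul_nonneg (hp ξ) (ha _ (hy ξ))
  have hAbar'0 : 0 ≤ Abar' := tsum_nonneg fun ξ => mul_nonneg (hp ξ) (ha' _ (hy ξ))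
  have hone : ∀ i : Fin 3, (0 : ℝ) < (fun _ => 1 : Fin 3 → ℝ) i := fun _ => one_pos
  have hHom1 : ∀ (f : (Fin 3 → ℝ) → ℝ) ξ, Hom f (fun i => 1 * (1 + lam * y ξ i))
      = f (fun i => lam * y ξ i) := by
    intro f ξ
    simp only [one_mul]
    exact Hom_one_add f _ (by rw [← Finset.mul_sum, (hy ξ).1, mul_zero])
  have hfirstE : ∀ f : (Fin 3 → ℝ) → ℝ, mT p y lam 1 (Hom f) (fun _ => 1)
      = ∑' ξ, p ξ * f (fun i => lam * y ξ i) := by
    intro f
    rw [mT_succ]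
    simp only [mT_zero, hHom1]
  have hT_L := hb_T hL hbL hCL
  have hT_s := hb_T hL hbs (by norm_num)
  -- the cone inequality after averaging
  have hTL : ∀ x : Fin 3 → ℝ, (∀ i, 0 < x i) →
      (fun x => Abar * Hom L x) x ≤ ∑' ξ, p ξ * Hom L (fun i => x i * (1 + lam * y ξ i)) := by
    intro x hx
    have hS := sum_pos3 x hx
    have hz := zOf_msg hx
    simp only
    rw [T_eqT hL hLb hCL x hx, Hom_eq]
    have hB := kp_bd hl0 hLb hCL hl1 (zOf x) hz (zOf_pos x hx)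
    have hsR : Summable fun ξ => p ξ * ((1 / 6 : ℝ) * ∑ g : Equiv.Perm (Fin 3),
        Kp L (zOf x) (fun i => lam * y ξ (g i))) :=
      summ_p_mul hL _ _ fun ξ => avg_abs_le (fun v => Kp L (zOf x) (fun i => lam * v i)) _ hB _ (hy ξ)
    have hsum : HasSum (fun ξ => p ξ * (a (y ξ) * L (zOf x) + b (zOf x) * L (y ξ)))
        (Abar * L (zOf x) + b (zOf x) * Lbar) := by
      have h := (hAs.mul_right (L (zOf x))).add (hLs.mul_left (b (zOf x)))
      convert h using 1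
      all_goals first | rfl | (funext ξ; ring) | ring
    have h1 : Abar * L (zOf x) + b (zOf x) * Lbar ≤ ∑' ξ, p ξ * ((1 / 6 : ℝ) *
        ∑ g : Equiv.Perm (Fin 3), Kp L (zOf x) (fun i => lam * y ξ (g i))) := by
      rw [← hsum.tsum_eq]
      exact hsum.summable.tsum_le_tsum
        (fun ξ => mul_le_mul_of_nonneg_left (hI _ _ hz (hy ξ)) (hp ξ)) hsR
    have h2 : 0 ≤ b (zOf x) * Lbar := mul_nonneg (hb _ hz) hLbar
    have h3 : 0 ≤ (∑ i, x i) / 3 := by positivity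
    have h4 := mul_le_mul_of_nonneg_left (h1.trans' (le_add_of_nonneg_right h2)) h3
    calc Abar * ((∑ i, x i) / 3 * L (zOf x)) = (∑ i, x i) / 3 * (Abar * L (zOf x)) := by ring
      _ ≤ _ := h4
  have hconeE : ∀ j : ℕ, 0 ≤ mT p y lam (j + 1) (Hom L) (fun _ => 1) := by
    intro j
    induction j with
    | zero =>
      rw [hfirstE]
      have hs2 : Summable fun ξ => p ξ * L (fun i => lam * y ξ i) :=
        summ_p_mul hL _ CL fun ξ => hLb _ (Msg_smul lam hl0 hl1.le _ (hy ξ))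
      have h1 : c1 * Lbar ≤ ∑' ξ, p ξ * L (fun i => lam * y ξ i) := by
        rw [← (hLs.mul_left c1).tsum_eq]
        refine (hLs.mul_left c1).summable.tsum_le_tsum (fun ξ => ?_) hs2
        have := mul_le_mul_of_nonneg_left (hfirst _ (hy ξ)) (hp ξ)
        calc c1 * (p ξ * L (y ξ)) = p ξ * (c1 * L (y ξ)) := by ring
          _ ≤ _ := this
      exact le_trans (mul_nonneg hc1 hLbar) h1
    | succ j ih =>
      rw [mT_succ']
      refine le_trans ?_ (mT_mono hL (hb_const hbL Abar) hT_L (by positivity) (by positivity) hTL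
        (j + 1) _ hone)
      rw [mT_const_mul]
      exact mul_nonneg hAbar0 ih
  refine ⟨hconeE, ?_⟩
  -- the second moment inequality after averaging
  have hTM : ∀ x : Fin 3 → ℝ, (∀ i, 0 < x i) →
      ∑' ξ, p ξ * Hom s2 (fun i => x i * (1 + lam * y ξ i))
        ≤ (fun x => Hom s2 x + ((lam ^ 2 * E) * ((∑ i, x i) / 3)
            + ((-Abar') * Hom L x + (-(c * E)) * Hom S2 x))) x := by
    intro x hx
    have hS := sum_pos3 x hx
    have hz := zOf_msg hx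
    simp only
    rw [T_eqT hL hs2B (by norm_num) x hx, Hom_eq s2, Hom_eq L, Hom_eq S2]
    have hB := kp_bd hl0 hs2B (by norm_num) hl1 (zOf x) hz (zOf_pos x hx)
    have hsR : Summable fun ξ => p ξ * ((1 / 6 : ℝ) * ∑ g : Equiv.Perm (Fin 3),
        Kp s2 (zOf x) (fun i => lam * y ξ (g i))) :=
      summ_p_mul hL _ _ fun ξ => avg_abs_le (fun v => Kp s2 (zOf x) (fun i => lam * v i)) _ hB _ (hy ξ)
    have hsum : HasSum (fun ξ => p ξ * (s2 (zOf x) + lam ^ 2 * s2 (y ξ) - a' (y ξ) * L (zOf x)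
            - b' (zOf x) * L (y ξ) - c * s2 (y ξ) * s2 (zOf x) ^ 2))
        (s2 (zOf x) + lam ^ 2 * E - Abar' * L (zOf x) - b' (zOf x) * Lbar
          - c * E * s2 (zOf x) ^ 2) := by
      have h := (((((hL.hp1.mul_left (s2 (zOf x))).add (hEs.mul_left (lam ^ 2))).sub
        (hAs'.mul_right (L (zOf x)))).sub (hLs.mul_left (b' (zOf x)))).sub
        (hEs.mul_left (c * s2 (zOf x) ^ 2)))
      convert h using 1
      all_goals first | rfl | (funext ξ; ring) | ring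
    have h1 : ∑' ξ, p ξ * ((1 / 6 : ℝ) *
        ∑ g : Equiv.Perm (Fin 3), Kp s2 (zOf x) (fun i => lam * y ξ (g i)))
        ≤ s2 (zOf x) + lam ^ 2 * E - Abar' * L (zOf x) - b' (zOf x) * Lbar
          - c * E * s2 (zOf x) ^ 2 := by
      rw [← hsum.tsum_eq]
      refine hsR.tsum_le_tsum (fun ξ => mul_le_mul_of_nonneg_left ?_ (hp ξ)) hsum.summable
      have := hM _ _ hz (hy ξ)
      linarith
    have h2 : 0 ≤ b' (zOf x) * Lbar := mul_nonneg (hb' _ hz) hLbar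
    have h3 : 0 ≤ (∑ i, x i) / 3 := by positivity
    have h4 : ∑' ξ, p ξ * ((1 / 6 : ℝ) *
        ∑ g : Equiv.Perm (Fin 3), Kp s2 (zOf x) (fun i => lam * y ξ (g i)))
        ≤ s2 (zOf x) + lam ^ 2 * E - Abar' * L (zOf x) - c * E * s2 (zOf x) ^ 2 := by
      linarith
    have h5 := mul_le_mul_of_nonneg_left h4 h3
    simp only [hS2]
    calc _ ≤ _ := h5
      _ = _ := by ring
  have hE1 : mT p y lam 1 (Hom s2) (fun _ => 1) = lam ^ 2 * E := by
    rw [hfirstE, hE, ← tsum_mul_left]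
    refine tsum_congr fun ξ => ?_
    rw [s2_smul]
    ring
  refine ⟨hE1, ?_⟩
  have hS2pos : ∀ j, 0 ≤ mT p y lam j (Hom S2) (fun _ => 1) := by
    intro j
    refine mT_nonneg hL (fun x hx => ?_) j _ hone
    rw [Hom_eq]
    have := sum_pos3 x hx
    simp only [hS2]
    positivity
  have hS2one : lam ^ 4 * E ^ 2 ≤ mT p y lam 1 (Hom S2) (fun _ => 1) := by
    rw [hfirstE]
    have e1 : ∀ ξ, S2 (fun i => lam * y ξ i) = lam ^ 4 * s2 (y ξ) ^ 2 := by
      intro ξ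
      simp only [hS2]
      rw [s2_smul]
      ring
    simp only [e1]
    have hcs : E ^ 2 ≤ ∑' ξ, p ξ * s2 (y ξ) ^ 2 :=
      jensen_tsum hp hL.hp1 (fun ξ => s2 (y ξ)) 2 fun ξ => hs2B _ (hy ξ)
    have e2 : ∑' ξ, p ξ * (lam ^ 4 * s2 (y ξ) ^ 2) = lam ^ 4 * ∑' ξ, p ξ * s2 (y ξ) ^ 2 := by
      rw [← tsum_mul_left]
      exact tsum_congr fun ξ => by ring
    rw [e2]
    exact mul_le_mul_of_nonneg_left hcs (by positivity)
  -- one step of the chain
  have hstep : ∀ j : ℕ, mT p y lam (j + 1 + 1) (Hom s2) (fun _ => 1)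
      ≤ mT p y lam (j + 1) (Hom s2) (fun _ => 1) + lam ^ 2 * E
        - (c * E) * mT p y lam (j + 1) (Hom S2) (fun _ => 1) := by
    intro j
    rw [mT_succ']
    have hR := hb_add hbs (hb_add (hb_const hb_mass (lam ^ 2 * E))
      (hb_add (hb_const hbL (-Abar')) (hb_const hbS (-(c * E)))))
    refine (mT_mono hL hT_s hR (by positivity) (by positivity) hTM (j + 1) _ hone).trans ?_
    rw [mT_lin hL hbs hbL hbS (by norm_num) hCL (by norm_num) (lam ^ 2 * E) (-Abar') (-(c * E))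
      (j + 1) _ hone, mT_mass hL]
    have e : (∑ i : Fin 3, (1 : ℝ)) / 3 = 1 := by simp
    simp only [e]
    have h1 := mul_nonneg hAbar'0 (hconeE j)
    nlinarith
  intro k
  induction k with
  | zero =>
    have h1 := hstep 0
    simp only [zero_add] at h1 ⊢
    rw [hE1] at h1
    have h2 := mul_le_mul_of_nonneg_left hS2one (mul_nonneg hc hE0)
    push_cast
    nlinarith
  | succ k ih =>
    have h1 := hstep (k + 1)
    have h2 := mul_nonneg (mul_nonneg hc hE0) (hS2pos (k + 1 + 1))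
    push_cast
    have e : k + 1 + 2 = k + 2 + 1 := by omega
    rw [e]
    have e2 : k + 1 + 1 = k + 2 := by omega
    rw [e2] at h1 h2
    nlinarith

end law

section link

variable {X : Type*} {p : X → ℝ} {y : X → Fin 3 → ℝ} {lam : ℝ}

/-- The `k`-fold merge as a series over the families of messages. -/
noncomputable def mergeT (p : X → ℝ) (y : X → Fin 3 → ℝ) (lam : ℝ) (k : ℕ) (G : (Fin 3 → ℝ) → ℝ)
    (x : Fin 3 → ℝ) : ℝ :=
  ∑' f : Fin k → X, (∏ c, p (f c)) * G (fun i => x i * ∏ c, (1 + lam * y (f c) i))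

lemma prod_p_hasSum (hL : Law3 p y lam) (k : ℕ) :
    HasSum (fun f : Fin k → X => ∏ c, p (f c)) 1 := by
  have := hasSum_pi_prod p hL.hp 1 hL.hp1 k
  simpa using this

lemma prod_msg_pos (hL : Law3 p y lam) {k : ℕ} (f : Fin k → X) (i : Fin 3) :
    0 < ∏ c, (1 + lam * y (f c) i) := Finset.prod_pos fun c _ => msg_pos hL _ _

lemma prod_msg_le (hL : Law3 p y lam) {k : ℕ} (f : Fin k → X) (i : Fin 3) :
    ∏ c, (1 + lam * y (f c) i) ≤ (1 + 2 * lam) ^ k := by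
  calc ∏ c, (1 + lam * y (f c) i) ≤ ∏ _c : Fin k, (1 + 2 * lam) :=
        Finset.prod_le_prod (fun c _ => (msg_pos hL _ _).le) (fun c _ => msg_le hL _ _)
    _ = _ := by simp

lemma summ_merge (hL : Law3 p y lam) {G : (Fin 3 → ℝ) → ℝ} {C : ℝ} (hG : HB G C) (hC : 0 ≤ C)
    (x : Fin 3 → ℝ) (hx : ∀ i, 0 < x i) (k : ℕ) :
    Summable fun f : Fin k → X =>
      (∏ c, p (f c)) * G (fun i => x i * ∏ c, (1 + lam * y (f c) i)) := by
  have hbd : ∀ f : Fin k → X, |G (fun i => x i * ∏ c, (1 + lam * y (f c) i))|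
      ≤ (∑ i, x i) * (1 + 2 * lam) ^ k / 3 * C := by
    intro f
    have hpos : ∀ i, 0 < x i * ∏ c, (1 + lam * y (f c) i) := fun i =>
      mul_pos (hx i) (prod_msg_pos hL f i)
    refine (hG _ hpos).trans (mul_le_mul_of_nonneg_right ?_ hC)
    have hs : ∑ i, x i * ∏ c, (1 + lam * y (f c) i) ≤ ∑ i, x i * (1 + 2 * lam) ^ k :=
      Finset.sum_le_sum fun i _ => mul_le_mul_of_nonneg_left (prod_msg_le hL f i) (hx i).le
    rw [← Finset.sum_mul] at hs
    exact div_le_div_of_nonneg_right hs (by norm_num)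
  refine Summable.of_norm_bounded
    (g := fun f : Fin k → X => (∏ c, p (f c)) * ((∑ i, x i) * (1 + 2 * lam) ^ k / 3 * C))
    ((prod_p_hasSum hL k).summable.mul_right _) fun f => ?_
  rw [norm_mul, Real.norm_eq_abs, Real.norm_eq_abs,
    abs_of_nonneg (Finset.prod_nonneg fun c _ => hL.hp _)]
  exact mul_le_mul_of_nonneg_left (hbd f) (Finset.prod_nonneg fun c _ => hL.hp _)

lemma mergeT_zero (G : (Fin 3 → ℝ) → ℝ) (x : Fin 3 → ℝ) : mergeT p y lam 0 G x = G x := by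
  unfold mergeT
  rw [tsum_fintype]
  simp

lemma mergeT_succ (hL : Law3 p y lam) {G : (Fin 3 → ℝ) → ℝ} {C : ℝ} (hG : HB G C) (hC : 0 ≤ C)
    (x : Fin 3 → ℝ) (hx : ∀ i, 0 < x i) (k : ℕ) :
    mergeT p y lam (k + 1) G x
      = ∑' ξ, p ξ * mergeT p y lam k G (fun i => x i * (1 + lam * y ξ i)) := by
  unfold mergeT
  rw [← (Fin.consEquiv (fun _ => X)).tsum_eq]
  have hs := (Fin.consEquiv (fun _ => X)).summable_iff.mpr (summ_merge hL hG hC x hx (k + 1))
  have e : ∀ z : X × (Fin k → X),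
      (∏ c, p ((Fin.consEquiv (fun _ => X)) z c))
        * G (fun i => x i * ∏ c, (1 + lam * y ((Fin.consEquiv (fun _ => X)) z c) i))
      = p z.1 * ((∏ c, p (z.2 c)) * G (fun i => (x i * (1 + lam * y z.1 i))
          * ∏ c, (1 + lam * y (z.2 c) i))) := by
    intro z
    simp only [Fin.consEquiv, Equiv.coe_fn_mk, Fin.prod_univ_succ, Fin.cons_zero, Fin.cons_succ]
    rw [mul_assoc]
    congr 3
    funext i
    ring
  have hs2 : Summable fun z : X × (Fin k → X) =>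
      p z.1 * ((∏ c, p (z.2 c)) * G (fun i => (x i * (1 + lam * y z.1 i))
          * ∏ c, (1 + lam * y (z.2 c) i))) := by
    convert hs using 1
    funext z
    exact (e z).symm
  simp only [e]
  rw [hs2.tsum_prod' ?_]
  · refine tsum_congr fun ξ => ?_
    dsimp only
    rw [tsum_mul_left]
  · intro ξ
    have := summ_merge hL hG hC (fun i => x i * (1 + lam * y ξ i))
      (fun i => msg_x_pos hL x hx ξ i) k
    dsimp only
    exact this.mul_left (p ξ)

lemma mergeT_eq (hL : Law3 p y lam) {G : (Fin 3 → ℝ) → ℝ} {C : ℝ} (hG : HB G C) (hC : 0 ≤ C) (k : ℕ)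
    (x : Fin 3 → ℝ) (hx : ∀ i, 0 < x i) : mergeT p y lam k G x = mT p y lam k G x := by
  induction k generalizing x with
  | zero => exact mergeT_zero G x
  | succ k ih =>
    rw [mergeT_succ hL hG hC x hx, mT_succ]
    exact tsum_congr fun ξ => by rw [ih _ (msg_x_pos hL x hx ξ)]

end link

section final

variable {off : ℕ → ℝ} {lam : ℝ}

lemma gLaw (hoff : ∀ N, 0 < off N) (hsum : HasSum off 1) (h0 : 0 ≤ lam) (h1 : lam < 1) (n : ℕ) :
    Law3 (gp off lam n) (gy off lam n) lam :=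
  ⟨fun ξ => (gp_pos hoff h0 h1 n ξ).le, gp_hasSum (fun N => (hoff N).le) hsum h0 h1.le n,
    fun ξ => ⟨gy_sum hoff h0 h1 n ξ, fun i => gy_ge hoff h0 h1 n ξ i⟩, fun g f => glaw_sym n g f,
    h0, h1⟩

lemma gterm (hoff : ∀ N, 0 < off N) (h0 : 0 ≤ lam) (h1 : lam < 1) (n : ℕ) (F : (Fin 3 → ℝ) → ℝ)
    (N : ℕ) (f : Fin N → Obs 3 n) :
    gp off lam (n + 1) ⟨N, f⟩ * F (gy off lam (n + 1) ⟨N, f⟩)
      = off N * ((∏ c, gp off lam n (f c))
          * Hom F (fun i => 1 * ∏ c, (1 + lam * gy off lam n (f c) i))) := by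
  have e : gp off lam (n + 1) ⟨N, f⟩ * F (gy off lam (n + 1) ⟨N, f⟩)
      = Hom F (fun i => gwLik 3 off lam (n + 1) i ⟨N, f⟩) := rfl
  rw [e]
  have e2 : (fun i => gwLik 3 off lam (n + 1) i ⟨N, f⟩)
      = fun i => (off N * ∏ c, gp off lam n (f c)) * ∏ c, (1 + lam * gy off lam n (f c) i) := by
    funext i
    exact gwLik_succ' hoff h0 h1 n i N f
  rw [e2, Hom_smul]
  · simp only [one_mul]
    ring
  · have h2 : 0 < off N * ∏ c, gp off lam n (f c) :=
      mul_pos (hoff N) (Finset.prod_pos fun c _ => gp_pos hoff h0 h1 n _)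
    exact h2.ne'

/-- The expectation at the next level, as a sum over the number of children. -/
lemma gphi_succ (hoff : ∀ N, 0 < off N) (hsum : HasSum off 1) (h0 : 0 ≤ lam) (h1 : lam < 1) (n : ℕ)
    {F : (Fin 3 → ℝ) → ℝ} {C : ℝ} (hF : ∀ v, Msg v → |F v| ≤ C) :
    (∑' ω : Obs 3 (n + 1), gp off lam (n + 1) ω * F (gy off lam (n + 1) ω))
      = ∑' N, off N * mT (gp off lam n) (gy off lam n) lam N (Hom F) (fun _ => 1)
    ∧ Summable fun N => off N * mT (gp off lam n) (gy off lam n) lam N (Hom F) (fun _ => 1) := by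
  have hL := gLaw hoff hsum h0 h1 n
  have hL' := gLaw hoff hsum h0 h1 (n + 1)
  have hC : 0 ≤ C := (abs_nonneg _).trans (hF _ msg_zero)
  have hS := summ_p_mul hL' (fun ω => F (gy off lam (n + 1) ω)) C (fun ω => hF _ (hL'.hy ω))
  have hfib : ∀ N, (∑' f : Fin N → Obs 3 n, gp off lam (n + 1) ⟨N, f⟩
      * F (gy off lam (n + 1) ⟨N, f⟩))
      = off N * mT (gp off lam n) (gy off lam n) lam N (Hom F) (fun _ => 1) := by
    intro N
    simp only [gterm hoff h0 h1]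
    rw [tsum_mul_left, ← mergeT_eq hL (hb_Hom hF) hC N _ (fun _ => one_pos)]
    rfl
  have hS' : Summable fun ω : (Σ N : ℕ, (Fin N → Obs 3 n)) =>
      gp off lam (n + 1) ω * F (gy off lam (n + 1) ω) := hS
  constructor
  · have := hS'.tsum_sigma' (fun N => hS'.sigma_factor N)
    rw [show (∑' ω : Obs 3 (n + 1), gp off lam (n + 1) ω * F (gy off lam (n + 1) ω))
        = ∑' ω : (Σ N : ℕ, (Fin N → Obs 3 n)), gp off lam (n + 1) ω * F (gy off lam (n + 1) ω)
        from rfl, this]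
    exact tsum_congr hfib
  · have := hS'.sigma
    simp only [hfib] at this
    exact this

lemma Hom_ones (f : (Fin 3 → ℝ) → ℝ) : Hom f (fun _ => 1) = f (fun _ => 0) := by
  have := Hom_one_add f (fun _ => 0) (by simp)
  simpa using this

lemma gy_zero (ω : Obs 3 0) : gy off lam 0 ω = vertex ω := by
  funext i
  have hS : gS off lam 0 ω = 1 := by
    unfold gS
    show ∑ i : Fin 3, (if ω = i then (1 : ℝ) else 0) = 1
    simp
  unfold gy
  rw [hS]
  show 3 * (if ω = i then (1 : ℝ) else 0) / 1 - 1 = if i = ω then 2 else -1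
  by_cases h : i = ω
  · rw [if_pos h.symm, if_pos h]
    norm_num
  · rw [if_neg (Ne.symm h), if_neg h]
    norm_num

lemma gwError_eq (hoff : ∀ N, 0 < off N) (h0 : 0 ≤ lam) (h1 : lam < 1) (n : ℕ) (ω : Obs 3 n) :
    gwProb 3 off lam n ω *
      ((1 / 2 : ℝ) * ∑ i : Fin 3, |gwJoint 3 off lam n i ω / gwProb 3 off lam n ω - 1 / ((3 : ℕ) : ℝ)|)
      = gp off lam n ω * ((1 / 6 : ℝ) * ∑ i, |gy off lam n ω i|) := by
  have hl : gwProb 3 off lam n ω = gp off lam n ω := by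
    unfold gwProb gwJoint gp gS
    rw [← Finset.mul_sum]
    push_cast
    ring
  have hj : ∀ i : Fin 3,
      |gwJoint 3 off lam n i ω / gp off lam n ω - 1 / ((3 : ℕ) : ℝ)| = |gy off lam n ω i| / 3 := by
    intro i
    have hS := gS_pos hoff h0 h1 n ω
    have e : gwJoint 3 off lam n i ω / gp off lam n ω - 1 / ((3 : ℕ) : ℝ) = gy off lam n ω i / 3 := by
      unfold gwJoint gp gy
      push_cast
      field_simp
    rw [e, abs_div]
    simp
  rw [hl]
  congr 1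
  simp only [hj, Fin.sum_univ_three]
  ring

lemma gy_abs_bd (hoff : ∀ N, 0 < off N) (hsum : HasSum off 1) (h0 : 0 ≤ lam) (h1 : lam < 1) (n : ℕ)
    (ω : Obs 3 n) : abs ((1 / 6 : ℝ) * ∑ i, |gy off lam n ω i|) ≤ 1 := by
  have hL := gLaw hoff hsum h0 h1 n
  have hnn : 0 ≤ (1 / 6 : ℝ) * ∑ i, |gy off lam n ω i| := by positivity
  rw [abs_of_nonneg hnn]
  have : ∀ i, |gy off lam n ω i| ≤ 2 := fun i => by
    rw [abs_le]
    exact ⟨by linarith [(hL.hy ω).2 i], msg_le3 (hL.hy ω) i⟩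
  simp only [Fin.sum_univ_three]
  linarith [this 0, this 1, this 2, this 3]

/-- Summability of the series defining the error. -/
theorem gwError_summable3 (hoff : ∀ N, 0 < off N) (hsum : HasSum off 1)
    (h0 : 0 ≤ lam) (h1 : lam < 1) (n : ℕ) :
    Summable fun ω : Obs 3 n => gwProb 3 off lam n ω *
      ((1 / 2 : ℝ) * ∑ i : Fin 3,
        |gwJoint 3 off lam n i ω / gwProb 3 off lam n ω - 1 / ((3 : ℕ) : ℝ)|) := by
  simp only [gwError_eq hoff h0 h1]
  exact summ_p_mul (gLaw hoff hsum h0 h1 n) _ _ (gy_abs_bd hoff hsum h0 h1 n)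

/-- Bound on the reconstruction error by the second moment. -/
lemma gwError_sq_le (hoff : ∀ N, 0 < off N) (hsum : HasSum off 1) (h0 : 0 ≤ lam) (h1 : lam < 1)
    (n : ℕ) :
    gwError 3 off lam n ^ 2 ≤ (∑' ω : Obs 3 n, gp off lam n ω * s2 (gy off lam n ω)) / 3 := by
  have hL := gLaw hoff hsum h0 h1 n
  have e1 : gwError 3 off lam n
      = ∑' ω : Obs 3 n, gp off lam n ω * ((1 / 6 : ℝ) * ∑ i, |gy off lam n ω i|) := by
    unfold gwError
    exact tsum_congr fun ω => gwError_eq hoff h0 h1 n ω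
  rw [e1]
  have hb := gy_abs_bd hoff hsum h0 h1 n
  have cs := jensen_tsum hL.hp hL.hp1 (fun ω => (1 / 6 : ℝ) * ∑ i, |gy off lam n ω i|) 1 hb
  refine cs.trans ?_
  rw [← tsum_div_const]
  have hs1 : Summable fun ω : Obs 3 n =>
      gp off lam n ω * ((1 / 6 : ℝ) * ∑ i, |gy off lam n ω i|) ^ 2 := by
    refine summ_p_mul hL _ (1 ^ 2) fun ω => ?_
    rw [abs_pow]
    exact pow_le_pow_left₀ (abs_nonneg _) (hb ω) 2
  have hs2 : Summable fun ω : Obs 3 n => gp off lam n ω * s2 (gy off lam n ω) / 3 := by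
    refine Summable.div_const ?_ _
    refine summ_p_mul hL _ 2 fun ω => ?_
    rw [abs_of_nonneg (s2_nonneg _)]
    exact s2_le3 (hL.hy ω)
  refine hs1.tsum_le_tsum (fun ω => ?_) hs2
  rw [mul_div_assoc]
  refine mul_le_mul_of_nonneg_left ?_ (hL.hp ω)
  unfold s2
  simp only [Fin.sum_univ_three]
  have a0 := abs_nonneg (gy off lam n ω 0)
  have a1 := abs_nonneg (gy off lam n ω 1)
  have a2 := abs_nonneg (gy off lam n ω 2)
  rw [← sq_abs (gy off lam n ω 0), ← sq_abs (gy off lam n ω 1), ← sq_abs (gy off lam n ω 2)]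
  nlinarith [sq_nonneg (|gy off lam n ω 0| - |gy off lam n ω 1|),
    sq_nonneg (|gy off lam n ω 0| - |gy off lam n ω 2|),
    sq_nonneg (|gy off lam n ω 1| - |gy off lam n ω 2|), sq_nonneg (|gy off lam n ω 0|),
    sq_nonneg (|gy off lam n ω 1|), sq_nonneg (|gy off lam n ω 2|)]

/-- **Master theorem on Galton-Watson trees** (three colours). -/
theorem gw_of_cone (hoff : ∀ N, 0 < off N) (hsum : HasSum off 1) {d : ℝ}
    (hm : HasSum (fun N : ℕ => off N * (N : ℝ)) d) (h0 : 0 ≤ lam) (h1 : lam < 1)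
    (hdl : d * lam ^ 2 ≤ 1)
    (L a b a' b' : (Fin 3 → ℝ) → ℝ) (c c1 : ℝ) (hc : 0 ≤ c) (hc2 : 0 < lam → 0 < c) (hc1 : 0 ≤ c1)
    (CL Ca Ca' : ℝ) (hLb : ∀ v, Msg v → |L v| ≤ CL) (haB : ∀ v, Msg v → a v ≤ Ca)
    (haB' : ∀ v, Msg v → a' v ≤ Ca')
    (ha : ∀ v, Msg v → 0 ≤ a v) (hb : ∀ z, Msg z → 0 ≤ b z)
    (ha' : ∀ v, Msg v → 0 ≤ a' v) (hb' : ∀ z, Msg z → 0 ≤ b' z)
    (hL00 : 0 ≤ L (fun _ => 0))
    (hleaf : ∀ i, 0 ≤ L (vertex i))
    (hfirst : ∀ v, Msg v → c1 * L v ≤ L (fun i => lam * v i))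
    (hI : ∀ z v, Msg z → Msg v →
      a v * L z + b z * L v
        ≤ (1 / 6) * ∑ g : Equiv.Perm (Fin 3), Kp L z (fun i => lam * v (g i)))
    (hM : ∀ z v, Msg z → Msg v →
      (1 / 6) * (∑ g : Equiv.Perm (Fin 3), Kp s2 z (fun i => lam * v (g i)))
        + a' v * L z + b' z * L v + c * s2 v * s2 z ^ 2 ≤ s2 z + lam ^ 2 * s2 v) :
    Tendsto (gwError 3 off lam) atTop (𝓝 0) := by
  have hL := fun n => gLaw hoff hsum h0 h1 n
  have hs2B : ∀ v, Msg v → |s2 v| ≤ 2 := fun v hv => by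
    rw [abs_of_nonneg (s2_nonneg v)]
    exact s2_le3 hv
  set e : ℕ → ℝ := fun n => ∑' ω : Obs 3 n, gp off lam n ω * s2 (gy off lam n ω) with he
  set Lb : ℕ → ℝ := fun n => ∑' ω : Obs 3 n, gp off lam n ω * L (gy off lam n ω) with hLbd
  have hstep := fun n (hn : 0 ≤ Lb n) =>
    law_stepT (hL n) hc hc1 hLb haB haB' ha hb ha' hb' hfirst hI hM hn
  have hLb0 : ∀ n, 0 ≤ Lb n := by
    intro n
    induction n with
    | zero =>
      refine tsum_nonneg fun ω => mul_nonneg ((hL 0).hp ω) ?_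
      rw [gy_zero]
      exact hleaf _
    | succ n ih =>
      simp only [hLbd]
      rw [(gphi_succ hoff hsum h0 h1 n hLb).1]
      refine tsum_nonneg fun N => mul_nonneg (hoff N).le ?_
      cases N with
      | zero =>
        rw [mT_zero, Hom_ones]
        exact hL00
      | succ j => exact (hstep n ih).1 j
  have he0 : ∀ n, 0 ≤ e n := fun n =>
    tsum_nonneg fun ω => mul_nonneg ((hL n).hp ω) (s2_nonneg _)
  have hoff2 : 0 < 1 - off 0 - off 1 := by
    have h2 := sum_le_hasSum ({0, 1, 2} : Finset ℕ) (fun N _ => (hoff N).le) hsum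
    rw [Finset.sum_insert (by norm_num), Finset.sum_pair (by norm_num)] at h2
    linarith [hoff 2]
  have hrec : ∀ n, e (n + 1) ≤ d * lam ^ 2 * e n
      - (1 - off 0 - off 1) * (c * lam ^ 4 * e n ^ 3) := by
    intro n
    obtain ⟨e1, hS⟩ := gphi_succ hoff hsum h0 h1 n hs2B
    obtain ⟨-, h1', h2'⟩ := hstep n (hLb0 n)
    show (∑' ω : Obs 3 (n + 1), gp off lam (n + 1) ω * s2 (gy off lam (n + 1) ω)) ≤ _
    rw [e1]
    have h1'' : mT (gp off lam n) (gy off lam n) lam 1 (Hom s2) (fun _ => 1) = lam ^ 2 * e n := h1'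
    have h2'' : ∀ k : ℕ, mT (gp off lam n) (gy off lam n) lam (k + 2) (Hom s2) (fun _ => 1)
        ≤ ((k : ℝ) + 2) * lam ^ 2 * e n - c * lam ^ 4 * e n ^ 3 := h2'
    set E := e n with hEd
    set K := c * lam ^ 4 * E ^ 3 with hK
    have h00 : s2 (fun _ => (0 : ℝ)) = 0 := by
      unfold s2
      simp
    have htop : ∀ N : ℕ, off N * mT (gp off lam n) (gy off lam n) lam N (Hom s2) (fun _ => 1)
        ≤ off N * (N : ℝ) * (lam ^ 2 * E)
          - (off N - (if N = 0 then off 0 else 0) - (if N = 1 then off 1 else 0)) * K := by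
      intro N
      match N with
      | 0 =>
        rw [mT_zero, Hom_ones, h00]
        simp
      | 1 =>
        rw [h1'']
        simp
      | k + 2 =>
        have h3 := mul_le_mul_of_nonneg_left (h2'' k) (hoff (k + 2)).le
        have hne0 : k + 2 ≠ 0 := by omega
        have hne1 : k + 2 ≠ 1 := by omega
        simp only [if_neg hne0, if_neg hne1]
        push_cast
        calc _ ≤ _ := h3
          _ = _ := by ring
    have hG : HasSum (fun N : ℕ => off N * (N : ℝ) * (lam ^ 2 * E)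
        - (off N - (if N = 0 then off 0 else 0) - (if N = 1 then off 1 else 0)) * K)
        (d * (lam ^ 2 * E) - (1 - off 0 - off 1) * K) :=
      (hm.mul_right _).sub
        (((hsum.sub (hasSum_ite_eq 0 (off 0))).sub (hasSum_ite_eq 1 (off 1))).mul_right _)
    refine (hS.tsum_le_tsum htop hG.summable).trans (le_of_eq ?_)
    rw [hG.tsum_eq]
    ring
  have hdrop : ∀ n, 0 ≤ (1 - off 0 - off 1) * (c * lam ^ 4 * e n ^ 3) := fun n => by
    have := he0 n
    positivity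
  have hanti : Antitone e := by
    refine antitone_nat_of_succ_le fun n => ?_
    have h2 := hrec n
    have h3 := hdrop n
    have h4 := he0 n
    have h5 := mul_le_mul_of_nonneg_right hdl h4
    linarith
  have hbdd : BddBelow (Set.range e) := ⟨0, by rintro _ ⟨n, rfl⟩; exact he0 n⟩
  have hlim := tendsto_atTop_ciInf hanti hbdd
  set ℓ := ⨅ n, e n with hℓ
  have hℓ0 : 0 ≤ ℓ := le_ciInf he0
  have hlim2 : Tendsto (fun n => d * lam ^ 2 * e n
      - (1 - off 0 - off 1) * (c * lam ^ 4 * e n ^ 3)) atTop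
      (𝓝 (d * lam ^ 2 * ℓ - (1 - off 0 - off 1) * (c * lam ^ 4 * ℓ ^ 3))) :=
    (hlim.const_mul _).sub (((hlim.pow 3).const_mul _).const_mul _)
  have hle : ℓ ≤ d * lam ^ 2 * ℓ - (1 - off 0 - off 1) * (c * lam ^ 4 * ℓ ^ 3) :=
    le_of_tendsto_of_tendsto' (hlim.comp (tendsto_add_atTop_nat 1)) hlim2 hrec
  have hℓz : ℓ = 0 := by
    by_contra hne
    have hpos : 0 < ℓ := lt_of_le_of_ne hℓ0 (Ne.symm hne)
    rcases h0.eq_or_lt with hl | hl
    · rw [← hl] at hle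
      norm_num at hle
      linarith
    · have hcpos := hc2 hl
      have h2 : 0 < (1 - off 0 - off 1) * (c * lam ^ 4 * ℓ ^ 3) := by positivity
      have h5 := mul_le_mul_of_nonneg_right hdl hℓ0
      linarith
  rw [hℓz] at hlim
  have hsq : ∀ n, gwError 3 off lam n ^ 2 ≤ e n / 3 := fun n => gwError_sq_le hoff hsum h0 h1 n
  have h12 : Tendsto (fun n => Real.sqrt (e n / 3)) atTop (𝓝 0) := by
    have := (hlim.div_const 3).sqrt
    simpa using this
  refine squeeze_zero_norm (fun n => ?_) h12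
  rw [Real.norm_eq_abs]
  exact Real.abs_le_sqrt (hsq n)

end final

section poisson

/-! The Poisson offspring law. -/

lemma poissonOff_pos {d : ℝ} (hd : 0 < d) (N : ℕ) : 0 < poissonOff d N := by
  unfold poissonOff
  positivity

lemma poissonOff_hasSum (d : ℝ) : HasSum (poissonOff d) 1 := by
  have h := (NormedSpace.expSeries_div_hasSum_exp d).mul_left (Real.exp (-d))
  rw [← Real.exp_eq_exp_ℝ, ← Real.exp_add, neg_add_cancel, Real.exp_zero] at h
  exact h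

lemma poissonOff_mean (d : ℝ) : HasSum (fun N : ℕ => poissonOff d N * (N : ℝ)) d := by
  rw [← hasSum_nat_add_iff' 1]
  have h := (poissonOff_hasSum d).mul_left d
  rw [mul_one] at h
  simp only [Finset.sum_range_one, Nat.cast_zero, mul_zero, sub_zero]
  have e : (fun N : ℕ => poissonOff d (N + 1) * ((N + 1 : ℕ) : ℝ)) = fun N => d * poissonOff d N := by
    funext N
    unfold poissonOff
    rw [Nat.factorial_succ]
    push_cast
    field_simp
    ring
  rw [e]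
  exact h

end poisson

end Vale.Agent.P154q3.GW3
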