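import Vale.Agent.P154.Defs

/-!
Potts channel with three colours on the rooted `d`-ary tree: a law-level master theorem.
A cone potential `L` and a second-moment inequality with margin give non-reconstruction.
-/

open Finset BigOperators Filter Topology

namespace Vale.Agent.P154q3

open Vale.Agent.P154

/-- Normalized second moment of a vector. -/
noncomputable def s2 (v : Fin 3 → ℝ) : ℝ := (∑ i, v i ^ 2) / 3

/-- Homogeneous extension of a potential. -/
noncomputable def Hom (f : (Fin 3 → ℝ) → ℝ) (x : Fin 3 → ℝ) : ℝ :=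
  (∑ i, x i) / 3 * f (fun i => 3 * x i / (∑ k, x k) - 1)

/-- The two-point potential `D * f(z ⊕ m)`, with `D = ∑ (1+z_i)(1+m_i)/4`. -/
noncomputable def Kp (f : (Fin 3 → ℝ) → ℝ) (z m : Fin 3 → ℝ) : ℝ :=
  Hom f (fun i => (1 + z i) * (1 + m i))

/-- Messages: normalized posterior vectors. -/
def Msg (v : Fin 3 → ℝ) : Prop := (∑ i, v i = 0) ∧ (∀ i, -1 ≤ v i)

/-- The vertices of the simplex of messages. -/
def vertex (i : Fin 3) : Fin 3 → ℝ := fun j => if j = i then 2 else -1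

/-- The normalized message of a positive vector. -/
noncomputable def zOf (x : Fin 3 → ℝ) : Fin 3 → ℝ := fun i => 3 * x i / (∑ k, x k) - 1

lemma zOf_msg {x : Fin 3 → ℝ} (hx : ∀ i, 0 < x i) : Msg (zOf x) := by
  have hS : 0 < ∑ i, x i := Finset.sum_pos (fun i _ => hx i) ⟨0, Finset.mem_univ _⟩
  constructor
  · have h3 : ∑ i, 3 * x i / (∑ k, x k) = 3 := by
      rw [← Finset.sum_div, ← Finset.mul_sum]
      field_simp
    simp only [zOf, Finset.sum_sub_distrib, h3]
    simp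
  · intro i
    have : 0 ≤ 3 * x i / ∑ k, x k := div_nonneg (by have := hx i; linarith) hS.le
    simp only [zOf]
    linarith

lemma Hom_eq (f : (Fin 3 → ℝ) → ℝ) (x : Fin 3 → ℝ) : Hom f x = (∑ i, x i) / 3 * f (zOf x) := rfl

lemma Hom_smul (f : (Fin 3 → ℝ) → ℝ) (c : ℝ) (hc : c ≠ 0) (v : Fin 3 → ℝ) :
    Hom f (fun i => c * v i) = c * Hom f v := by
  unfold Hom
  have h1 : (∑ i, c * v i) = c * ∑ i, v i := by rw [Finset.mul_sum]
  have h2 : ∀ i, 3 * (c * v i) / (c * ∑ k, v k) = 3 * v i / ∑ k, v k := by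
    intro i
    rw [show 3 * (c * v i) = c * (3 * v i) by ring, mul_div_mul_left _ _ hc]
  simp only [h1, h2]
  ring

lemma Hom_mul (f : (Fin 3 → ℝ) → ℝ) (x m : Fin 3 → ℝ) (hS : (∑ i, x i) ≠ 0) :
    Hom f (fun i => x i * (1 + m i))
      = (∑ i, x i) / 3 * Kp f (zOf x) m := by
  unfold Kp zOf
  have hc : (∑ i, x i) / 3 ≠ 0 := div_ne_zero hS (by norm_num)
  rw [← Hom_smul f _ hc]
  congr 1
  funext i
  field_simp
  ring

lemma Hom_one_add (f : (Fin 3 → ℝ) → ℝ) (m : Fin 3 → ℝ) (hm : ∑ i, m i = 0) :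
    Hom f (fun i => 1 + m i) = f m := by
  unfold Hom
  have h1 : ∑ i, (1 + m i) = 3 := by
    rw [Finset.sum_add_distrib, hm]; simp
  simp only [h1]
  have h2 : (fun i => 3 * (1 + m i) / 3 - 1) = m := by
    funext i; ring
  rw [h2]; simp

lemma s2_nonneg (v : Fin 3 → ℝ) : 0 ≤ s2 v := by
  unfold s2
  exact div_nonneg (Finset.sum_nonneg fun i _ => sq_nonneg _) (by norm_num)

lemma s2_smul (r : ℝ) (v : Fin 3 → ℝ) : s2 (fun i => r * v i) = r ^ 2 * s2 v := by
  unfold s2
  simp only [mul_pow, ← Finset.mul_sum]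
  ring


variable {lam : ℝ}

lemma potts_nonneg (h0 : 0 ≤ lam) (h1 : lam ≤ 1) (i j : Fin 3) : 0 ≤ potts 3 lam i j := by
  unfold potts
  have : 0 ≤ (1 - lam) / ((3 : ℕ) : ℝ) := by
    push_cast; linarith
  split_ifs <;> linarith

lemma potts_sum (lam : ℝ) (i : Fin 3) (w : Fin 3 → ℝ) :
    ∑ j, potts 3 lam i j * w j = lam * w i + (1 - lam) / 3 * ∑ j, w j := by
  unfold potts
  simp only [add_mul, Finset.sum_add_distrib, ite_mul, zero_mul, Finset.sum_ite_eq, Finset.mem_univ,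
    if_true, ← Finset.mul_sum]
  push_cast
  ring


lemma potts_perm (g : Equiv.Perm (Fin 3)) (i j : Fin 3) :
    potts 3 lam (g i) (g j) = potts 3 lam i j := by
  unfold potts
  simp

theorem Msg_smul (l : ℝ) (h0 : 0 ≤ l) (h1 : l ≤ 1) (v : Fin 3 → ℝ) (hv : Msg v) :
    Msg (fun i => l * v i) := by
  constructor
  · rw [← Finset.mul_sum, hv.1, mul_zero]
  · intro i
    have := hv.2 i
    nlinarith

end Vale.Agent.P154q3
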